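import Vale.Agent.P088.R2.H961.F.CellD
import Vale.Agent.P088.R2.H464.B.Fd

/-!
# P088, zone B1: helper464's classes `Hy` give the hypothesis of FR1
-/

open Finset Set Filter
open scoped ContDiff Topology

noncomputable section

namespace Vale.Agent.P088.R2.H961.F

open Vale.Agent.P088.LR Vale.Agent.P088.HY
open Vale.Agent.P088.R2.H464.EP (Sm TE Dat ds scd)
open Vale.Agent.P088.R2.H464.B (Ge Hy ms mn x3 Sz)
open Vale.Agent.P088.R2.H516.B (mu)

section gen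

variable {α ι E : Type} [Fintype ι] [DecidableEq ι] [NormedAddCommGroup E] [NormedSpace ℝ E]
  {G : Ge α ι E} {e r t δ : α → E → ℝ} {s d : ι → ι → α → E → ℝ} {W W₀ : α → E → ℝ}

omit [Fintype ι] [DecidableEq ι] in
/-- A finite family with the same bound. -/
theorem O_fin {κ : Type*} [Fintype κ] {g : α → E → ℝ} (hg : G.Nn g) {f : κ → α → E → ℝ}
    (h : ∀ i, G.O g (f i)) :
    ∃ C, 0 ≤ C ∧ ∀ i, ∀ x, ∀ z ∈ G.Z x, |f i x z| ≤ C * g x z := by
  choose C hC0 hC using fun i => (h i).nn hg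
  refine ⟨∑ i, C i, Finset.sum_nonneg fun i _ => hC0 i, fun i x z hz => (hC i x z hz).trans ?_⟩
  exact mul_le_mul_of_nonneg_right
    (Finset.single_le_sum (f := C) (fun i _ => hC0 i) (Finset.mem_univ i)) (hg x z hz)

omit [Fintype ι] [DecidableEq ι] in
theorem fd_on {Z : Set E} (hZ : IsOpen Z) {f g : E → ℝ} (h : ∀ w ∈ Z, f w = g w) {z : E}
    (hz : z ∈ Z) : fderiv ℝ f z = fderiv ℝ g z := by
  have : f =ᶠ[𝓝 z] g := by filter_upwards [hZ.mem_nhds hz] with w hw using h w hw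
  exact this.fderiv_eq

/-- The constants of `Hy`. -/
structure HC (G : Ge α ι E) (e r δ : α → E → ℝ) (s d : ι → ι → α → E → ℝ)
    (om : α → E → ℝ) (C : ℝ) : Prop where
  C0 : 0 ≤ C
  s0 : ∀ i j x, ∀ z ∈ G.Z x, |s i j x z| ≤ C * δ x z
  d0 : ∀ i j x, ∀ z ∈ G.Z x, |d i j x z| ≤ C * (δ x z * r x z)
  sa : ∀ k i j x, ∀ z ∈ G.Z x, |G.da k (s i j) x z| ≤ C * δ x z
  sb : ∀ k i j x, ∀ z ∈ G.Z x, |G.db k (s i j) x z| ≤ C * δ x z
  da : ∀ k i j x, ∀ z ∈ G.Z x, |G.da k (d i j) x z| ≤ C * δ x z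
  db : ∀ k i j x, ∀ z ∈ G.Z x, |G.db k (d i j) x z| ≤ C * (δ x z * r x z)
  oa : ∀ i x, ∀ z ∈ G.Z x, |G.da i om x z| ≤ C * (δ x z * (e x z * r x z))
  ob : ∀ i x, ∀ z ∈ G.Z x, |G.db i om x z| ≤ C * (δ x z * (e x z * r x z ^ 2))
  oaa : ∀ i j x, ∀ z ∈ G.Z x, |G.da i (G.da j om) x z| ≤ C * (δ x z * e x z)
  oab : ∀ i j x, ∀ z ∈ G.Z x, |G.da i (G.db j om) x z| ≤ C * (δ x z * (e x z * r x z))
  obb : ∀ i j x, ∀ z ∈ G.Z x, |G.db i (G.db j om) x z| ≤ C * (δ x z * (e x z * r x z ^ 2))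

omit [DecidableEq ι] in
theorem hc_of (H : Hy G e r t δ s d W W₀) :
    ∃ C, HC G e r δ s d (fun x z => W x z - W₀ x z) C := by
  have nn : ∀ k a b c, G.Nn (mn e r t δ k a b c) := fun k a b c => H464.B.mn_nn H.sz k a b c
  obtain ⟨c1, p1, q1⟩ := O_fin (κ := ι × ι) (f := fun p => s p.1 p.2) (nn 1 0 0 0)
    fun p => (H.hs p.1 p.2).zero_of
  obtain ⟨c2, p2, q2⟩ := O_fin (κ := ι × ι) (f := fun p => d p.1 p.2) (nn 1 0 1 0)
    fun p => (H.hd p.1 p.2).zero_of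
  obtain ⟨c3, p3, q3⟩ := O_fin (κ := ι × ι × ι) (f := fun p => G.da p.1 (s p.2.1 p.2.2))
    (nn 1 0 0 0) fun p => ((H.hs p.2.1 p.2.2).2.1 p.1).zero_of
  obtain ⟨c4, p4, q4⟩ := O_fin (κ := ι × ι × ι) (f := fun p => G.db p.1 (s p.2.1 p.2.2))
    (nn 1 0 0 0) fun p => ((H.hs p.2.1 p.2.2).2.2 p.1).zero_of
  obtain ⟨c5, p5, q5⟩ := O_fin (κ := ι × ι × ι) (f := fun p => G.da p.1 (d p.2.1 p.2.2))
    (nn 1 0 0 0) fun p => ((H.hd p.2.1 p.2.2).2.1 p.1).zero_of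
  obtain ⟨c6, p6, q6⟩ := O_fin (κ := ι × ι × ι) (f := fun p => G.db p.1 (d p.2.1 p.2.2))
    (nn 1 0 1 0) fun p => ((H.hd p.2.1 p.2.2).2.2 p.1).zero_of
  obtain ⟨c7, p7, q7⟩ := O_fin (κ := ι) (f := fun i => G.da i fun x z => W x z - W₀ x z)
    (nn 1 1 1 0) fun i => (H.hD.2.1 i).zero_of
  obtain ⟨c8, p8, q8⟩ := O_fin (κ := ι) (f := fun i => G.db i fun x z => W x z - W₀ x z)
    (nn 1 1 2 0) fun i => (H.hD.2.2 i).zero_of
  obtain ⟨c9, p9, q9⟩ := O_fin (κ := ι × ι)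
    (f := fun p => G.da p.1 (G.da p.2 fun x z => W x z - W₀ x z))
    (nn 1 1 0 0) fun p => ((H.hD.2.1 p.2).2.1 p.1).zero_of
  obtain ⟨c10, p10, q10⟩ := O_fin (κ := ι × ι)
    (f := fun p => G.da p.1 (G.db p.2 fun x z => W x z - W₀ x z))
    (nn 1 1 1 0) fun p => ((H.hD.2.2 p.2).2.1 p.1).zero_of
  obtain ⟨c11, p11, q11⟩ := O_fin (κ := ι × ι)
    (f := fun p => G.db p.1 (G.db p.2 fun x z => W x z - W₀ x z))
    (nn 1 1 2 0) fun p => ((H.hD.2.2 p.2).2.2 p.1).zero_of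
  have v1 : ∀ x z, mn e r t δ 1 0 0 0 x z = δ x z := fun x z => by
    simp [mn]
  have v2 : ∀ x z, mn e r t δ 1 0 1 0 x z = δ x z * r x z := fun x z => by
    simp [mn]
  have v3 : ∀ x z, mn e r t δ 1 1 1 0 x z = δ x z * (e x z * r x z) := fun x z => by
    simp [mn, mul_assoc]
  have v4 : ∀ x z, mn e r t δ 1 1 2 0 x z = δ x z * (e x z * r x z ^ 2) := fun x z => by
    simp [mn, mul_assoc]
  have v5 : ∀ x z, mn e r t δ 1 1 0 0 x z = δ x z * e x z := fun x z => by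
    simp [mn]
  set C := c1 + c2 + c3 + c4 + c5 + c6 + c7 + c8 + c9 + c10 + c11 with hC
  have g1 : ∀ x, ∀ z ∈ G.Z x, 0 ≤ δ x z := fun x z hz => by rw [← v1]; exact nn _ _ _ _ x z hz
  have g2 : ∀ x, ∀ z ∈ G.Z x, 0 ≤ δ x z * r x z := fun x z hz => by
    rw [← v2]; exact nn _ _ _ _ x z hz
  have g3 : ∀ x, ∀ z ∈ G.Z x, 0 ≤ δ x z * (e x z * r x z) := fun x z hz => by
    rw [← v3]; exact nn _ _ _ _ x z hz
  have g4 : ∀ x, ∀ z ∈ G.Z x, 0 ≤ δ x z * (e x z * r x z ^ 2) := fun x z hz => by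
    rw [← v4]; exact nn _ _ _ _ x z hz
  have g5 : ∀ x, ∀ z ∈ G.Z x, 0 ≤ δ x z * e x z := fun x z hz => by
    rw [← v5]; exact nn _ _ _ _ x z hz
  have up : ∀ {c X g : ℝ}, X ≤ c * g → c ≤ C → 0 ≤ g → X ≤ C * g := fun h1 h2 h3 =>
    h1.trans (mul_le_mul_of_nonneg_right h2 h3)
  have L : c1 ≤ C ∧ c2 ≤ C ∧ c3 ≤ C ∧ c4 ≤ C ∧ c5 ≤ C ∧ c6 ≤ C ∧ c7 ≤ C ∧ c8 ≤ C ∧ c9 ≤ C ∧
      c10 ≤ C ∧ c11 ≤ C := by
    refine ⟨?_, ?_, ?_, ?_, ?_, ?_, ?_, ?_, ?_, ?_, ?_⟩ <;> linarith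
  obtain ⟨l1, l2, l3, l4, l5, l6, l7, l8, l9, l10, l11⟩ := L
  refine ⟨C, by positivity, fun i j x z hz => up (c := c1) ?_ l1 (g1 x z hz),
    fun i j x z hz => up (c := c2) ?_ l2 (g2 x z hz),
    fun k i j x z hz => up (c := c3) ?_ l3 (g1 x z hz),
    fun k i j x z hz => up (c := c4) ?_ l4 (g1 x z hz),
    fun k i j x z hz => up (c := c5) ?_ l5 (g1 x z hz),
    fun k i j x z hz => up (c := c6) ?_ l6 (g2 x z hz),
    fun i x z hz => up (c := c7) ?_ l7 (g3 x z hz),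
    fun i x z hz => up (c := c8) ?_ l8 (g4 x z hz),
    fun i j x z hz => up (c := c9) ?_ l9 (g5 x z hz),
    fun i j x z hz => up (c := c10) ?_ l10 (g3 x z hz),
    fun i j x z hz => up (c := c11) ?_ l11 (g4 x z hz)⟩
  · rw [← v1]; exact q1 (i, j) x z hz
  · rw [← v2]; exact q2 (i, j) x z hz
  · rw [← v1]; exact q3 (k, i, j) x z hz
  · rw [← v1]; exact q4 (k, i, j) x z hz
  · rw [← v1]; exact q5 (k, i, j) x z hz
  · rw [← v2]; exact q6 (k, i, j) x z hz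
  · rw [← v3]; exact q7 i x z hz
  · rw [← v4]; exact q8 i x z hz
  · rw [← v5]; exact q9 (i, j) x z hz
  · rw [← v3]; exact q10 (i, j) x z hz
  · rw [← v4]; exact q11 (i, j) x z hz

omit [Fintype ι] [DecidableEq ι] in
/-- `HC` at a point gives `Pb`. -/
theorem pb_of {om : α → E → ℝ} {C : ℝ} (H : HC G e r δ s d om C) {x : α} {z : E}
    (hz : z ∈ G.Z x) {a b : ι → E} {s' d' : ι → ι → Sm E} {om' : Sm E} (ha : a = G.a x)
    (hb : b = G.b x) (es : ∀ i j, ∀ w ∈ G.Z x, (s' i j : E → ℝ) w = s i j x w)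
    (ed : ∀ i j, ∀ w ∈ G.Z x, (d' i j : E → ℝ) w = d i j x w)
    (eo : ∀ w ∈ G.Z x, (om' : E → ℝ) w = om x w) (d0 : 0 ≤ δ x z) (r0 : 0 < r x z)
    (r1 : r x z ≤ 1) (m1 : 1 ≤ e x z * r x z ^ 2) (dm : C * δ x z * (e x z * r x z ^ 2) ≤ 1) :
    Pb a b s' d' om' 0 0 (C * δ x z) (e x z) (r x z) z := by
  subst ha hb
  have hC := H.C0
  have f1 : ∀ i j v, vl z (ds v (s' i j)) = fderiv ℝ (s i j x) z v := fun i j v => by
    change fderiv ℝ (s' i j : E → ℝ) z v = _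
    rw [fd_on (G.op x) (es i j) hz]
  have f2 : ∀ i j v, vl z (ds v (d' i j)) = fderiv ℝ (d i j x) z v := fun i j v => by
    change fderiv ℝ (d' i j : E → ℝ) z v = _
    rw [fd_on (G.op x) (ed i j) hz]
  have f3 : ∀ v, ∀ w ∈ G.Z x, (ds v om' : E → ℝ) w = fderiv ℝ (om x) w v := fun v w hw => by
    change fderiv ℝ (om' : E → ℝ) w v = _
    rw [fd_on (G.op x) eo hw]
  have f4 : ∀ u v, vl z (ds u (ds v om')) = fderiv ℝ (fun w => fderiv ℝ (om x) w v) z u :=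
    fun u v => by
      change fderiv ℝ (ds v om' : E → ℝ) z u = _
      rw [fd_on (G.op x) (f3 v) hz]
  have he : 0 < e x z := by
    by_contra hc
    have : e x z * r x z ^ 2 ≤ 0 := mul_nonpos_of_nonpos_of_nonneg (not_lt.1 hc) (sq_nonneg _)
    linarith
  have dr : δ x z * r x z ≤ δ x z := mul_le_of_le_one_right d0 r1
  exact
    { δ0 := mul_nonneg hC d0
      r0 := r0
      r1 := r1
      m1 := m1
      dm := dm
      s0 := fun i j => by
        change |(s' i j : E → ℝ) z| ≤ _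
        rw [es i j z hz]; exact H.s0 i j x z hz
      d0 := fun i j => by
        change |(d' i j : E → ℝ) z| ≤ _
        rw [ed i j z hz, mul_assoc]; exact H.d0 i j x z hz
      sa := fun k i j => by rw [f1]; exact H.sa k i j x z hz
      sb := fun k i j => by rw [f1]; exact H.sb k i j x z hz
      da := fun k i j => by rw [f2]; exact H.da k i j x z hz
      db := fun k i j => by
        rw [f2]
        exact (H.db k i j x z hz).trans (mul_le_mul_of_nonneg_left dr hC)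
      oa := fun i => by
        change |(ds (G.a x i) om' : E → ℝ) z| ≤ _
        rw [f3 _ z hz, mul_assoc]; exact H.oa i x z hz
      ob := fun i => by
        change |(ds (G.b x i) om' : E → ℝ) z| ≤ _
        rw [f3 _ z hz, mul_assoc]; exact H.ob i x z hz
      oaa := fun i j => by rw [f4, mul_assoc]; exact H.oaa i j x z hz
      oab := fun i j => by rw [f4, mul_assoc]; exact H.oab i j x z hz
      obb := fun i j => by rw [f4, mul_assoc]; exact H.obb i j x z hz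
      vp := by
        rw [map_zero, add_zero, abs_zero]
        exact mul_nonneg (mul_nonneg hC d0) he.le
      vm := by
        rw [map_zero, sub_zero, abs_zero]
        exact mul_nonneg (mul_nonneg hC d0) (mul_nonneg he.le r0.le) }

end gen

/-! ## Families of cells -/

section cells

variable {α : Type} {n : ℕ} (c : α → CD n) (Z : α → Set (VV n)) (hZ : ∀ x, IsOpen (Z x))
  (s₁ s₂ : α → MF n)

/-- The vectors and the zones. -/
def Gf : Ge α (Fin n) (VV n) where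
  a x := (c x).T.a
  b x := (c x).T.b
  Z := Z
  op := hZ

/-- The half sum of the tensors in the frame, minus the identity. -/
def fs (i j : Fin n) : α → VV n → ℝ := fun x z =>
  1 / 2 * ((∑ k, ∑ l, (c x).N i k * (c x).N j l * s₁ x z.1 k l) +
    ∑ k, ∑ l, (c x).N i k * (c x).N j l * s₂ x z.2 k l) - if i = j then 1 else 0

/-- The half difference of the tensors in the frame. -/
def fd (i j : Fin n) : α → VV n → ℝ := fun x z =>
  1 / 2 * ((∑ k, ∑ l, (c x).N i k * (c x).N j l * s₁ x z.1 k l) -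
    ∑ k, ∑ l, (c x).N i k * (c x).N j l * s₂ x z.2 k l)

variable {s₁ s₂}

/-- The stiffness and `√(μ / e)`. -/
def fe : α → VV n → ℝ := fun x z => ((c x).T.e : VV n → ℝ) z
def fr : α → VV n → ℝ := fun x z =>
  Real.sqrt ((mu (c x).T : VV n → ℝ) z / ((c x).T.e : VV n → ℝ) z)

theorem fe_pos (x : α) (z : VV n) : 0 < fe c x z := by
  unfold fe
  rw [T_e]
  exact mul_pos (c x).hE (Real.exp_pos _)

theorem mu_ge (x : α) (z : VV n) : 1 ≤ (mu (c x).T : VV n → ℝ) z := by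
  change 1 ≤ 1 + ((c x).T.e : VV n → ℝ) z * ((c x).T.qq : VV n → ℝ) z
  have h1 := fe_pos c x z
  unfold fe at h1
  rw [T_qq]
  have : 0 ≤ ∑ i, (∑ k, (c x).N i k * (z.1 k - z.2 k)) ^ 2 :=
    Finset.sum_nonneg fun i _ => sq_nonneg _
  nlinarith [mul_nonneg h1.le this]

/-- **`Hy` gives `CD.Pb`.** -/
theorem cdPb_of {t δ : α → VV n → ℝ} (W : α → Sm (VV n))
    (h₁ : ∀ x i j, ContDiff ℝ ∞ fun y => s₁ x y i j)
    (h₂ : ∀ x i j, ContDiff ℝ ∞ fun y => s₂ x y i j)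
    (y₁ : ∀ x y i j, s₁ x y i j = s₁ x y j i) (y₂ : ∀ x y i j, s₂ x y i j = s₂ x y j i)
    (H : Hy (Gf c Z hZ) (fe c) (fr c) t δ (fs c s₁ s₂) (fd c s₁ s₂) (fun x => (W x : VV n → ℝ))
      fun x => ((c x).T.w : VV n → ℝ)) :
    ∃ C, 0 ≤ C ∧ ∀ (x : α) (del : VV n → ℝ),
      (∀ z ∈ Z x, C * δ x z * (mu (c x).T : VV n → ℝ) z ≤ 1) →
      (∀ z ∈ Z x, 11 * ((n : ℝ) + 1) ^ 2 * (C * δ x z) ≤ del z) →
      (c x).Pb (Z x) (W x) (h₁ x) (h₂ x) del := by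
  obtain ⟨C, hC⟩ := hc_of H
  refine ⟨C, hC.C0, fun x del hm hd => ?_⟩
  have em : ∀ z, fe c x z * fr c x z ^ 2 = (mu (c x).T : VV n → ℝ) z := fun z =>
    (rt_mul (fe_pos c x z) (by linarith [mu_ge c x z])).2
  exact
    { he := fun z _ => fe_pos c x z
      hm := fun z _ => by linarith [mu_ge c x z]
      hs := hS_symm (cX_symm _ (h₁ x) (y₁ x)) (cY_symm _ (h₂ x) (y₂ x))
      hd := hD_symm (cX_symm _ (h₁ x) (y₁ x)) (cY_symm _ (h₂ x) (y₂ x))
      pb := fun z hz => by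
        refine ⟨C * δ x z, by rw [Fintype.card_fin]; exact hd z hz, ?_⟩
        refine pb_of hC (x := x) (z := z) hz rfl rfl (fun i j w _ => ?_) (fun i j w _ => ?_)
          (fun w _ => rfl) (H.sz.d0 x z hz) (H.sz.r0 x z hz)
          ((H.sz.rt x z hz).trans (H.sz.t1 x z hz)) (by rw [em]; exact mu_ge c x z)
          (by rw [em]; exact hm z hz)
        · unfold hS id1 fs
          change 1 / 2 * (_ + _) - ((if i = j then (1 : Sm (VV n)) else 0 : Sm (VV n)) : VV n → ℝ) w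
            = _
          congr 1
          split <;> rfl
        · rfl }

end cells

end Vale.Agent.P088.R2.H961.F
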