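import Vale.Agent.P088.R2.H961.F.Exp

/-!
# P088, zone B1: pointwise bounds of `S_t - S`, `R_t - R`

`X = a + b/2`, `Y = -a + b/2`, `s_x = 1 + s + d`, `s_y = 1 + s - d`, `D = dd W₀ a`, `K = dd W₀ b`.
-/

open Finset

noncomputable section

namespace Vale.Agent.P088.R2.H961.F

open Vale.Agent.P088.R2.H464.EP

variable {ι E : Type} [Fintype ι] [DecidableEq ι] [NormedAddCommGroup E] [NormedSpace ℝ E]

/-- Evaluation of operators at a function and a point. -/
def ev (f : TE E) (z : E) : Op E →ₗ[ℝ] ℝ where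
  toFun A := (A f).fn z
  map_add' _ _ := rfl
  map_smul' _ _ := rfl

theorem ev_ml (f : TE E) (z : E) (g : Sm E) (A : Op E) :
    ev f z (ml g * A) = (g : E → ℝ) z * ev f z A := rfl

theorem ev_ml1 (f : TE E) (z : E) (g : Sm E) : ev f z (ml g) = (g : E → ℝ) z * f.fn z := rfl

/-- The value of a smooth function. -/
def vl (z : E) : Sm E →ₐ[ℝ] ℝ where
  toFun g := (g : E → ℝ) z
  map_one' := rfl
  map_mul' _ _ := rfl
  map_zero' := rfl
  map_add' _ _ := rfl
  commutes' _ := rfl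

theorem vl_eq (z : E) (g : Sm E) : (g : E → ℝ) z = vl z g := rfl

variable (W W₀ : Sm E) (a b : ι → E) (s d : ι → ι → Sm E) (v₁ v₂ : Sm E)

/-- `X = a + b/2`. -/
def Xv (a b : ι → E) (i : ι) : E := a i + (1 / 2 : ℝ) • b i

/-- `Y = -a + b/2`. -/
def Yv (a b : ι → E) (i : ι) : E := -a i + (1 / 2 : ℝ) • b i

/-- The identity. -/
def id1 (i j : ι) : Sm E := if i = j then 1 else 0

/-- `1 + s + d`. -/
def sX (s d : ι → ι → Sm E) (i j : ι) : Sm E := id1 i j + s i j + d i j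

/-- `1 + s - d`. -/
def sY (s d : ι → ι → Sm E) (i j : ι) : Sm E := id1 i j + s i j - d i j

/-- `P_x`. -/
def PX : Op E := Pv W (Xv a b) (sX s d) v₁

/-- `P_y`. -/
def PY : Op E := Pv W (Yv a b) (sY s d) v₂

/-- `S_t = (P_x + P_y) / 2`. -/
def St : Op E := (1 / 2 : ℝ) • (PX W a b s d v₁ + PY W a b s d v₂)

/-- `R_t = (P_x - P_y) / 2`. -/
def Rt : Op E := (1 / 2 : ℝ) • (PX W a b s d v₁ - PY W a b s d v₂)

theorem dd_X (i : ι) : dd W₀ (Xv a b i) = dd W₀ (a i) + (1 / 2 : ℝ) • dd W₀ (b i) := by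
  rw [Xv, dd_add, dd_smul]

theorem dd_Y (i : ι) : dd W₀ (Yv a b i) = -dd W₀ (a i) + (1 / 2 : ℝ) • dd W₀ (b i) := by
  rw [Yv, dd_add, dd_smul, show -a i = (-1 : ℝ) • a i by simp, dd_smul]
  simp

section pt

variable (f : TE E) (z : E)

theorem evXX (i j : ι) : ev f z (dd W₀ (Xv a b i) * dd W₀ (Xv a b j)) =
    ev f z (dd W₀ (a i) * dd W₀ (a j)) + 1 / 2 * (ev f z (dd W₀ (a i) * dd W₀ (b j)) +
      ev f z (dd W₀ (a j) * dd W₀ (b i))) + 1 / 4 * ev f z (dd W₀ (b i) * dd W₀ (b j)) := by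
  rw [dd_X, dd_X, add_mul, mul_add, mul_add, smul_mul_assoc, smul_mul_assoc, mul_smul_comm,
    mul_smul_comm, dd_comm W₀ (b i) (a j)]
  simp only [map_add, map_smul, smul_eq_mul]
  ring

theorem evYY (i j : ι) : ev f z (dd W₀ (Yv a b i) * dd W₀ (Yv a b j)) =
    ev f z (dd W₀ (a i) * dd W₀ (a j)) - 1 / 2 * (ev f z (dd W₀ (a i) * dd W₀ (b j)) +
      ev f z (dd W₀ (a j) * dd W₀ (b i))) + 1 / 4 * ev f z (dd W₀ (b i) * dd W₀ (b j)) := by
  rw [dd_Y, dd_Y, add_mul, mul_add, mul_add, smul_mul_assoc, smul_mul_assoc, mul_smul_comm,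
    neg_mul_neg, neg_mul, mul_neg, mul_smul_comm, dd_comm W₀ (b i) (a j)]
  simp only [map_add, map_neg, map_smul, smul_eq_mul]
  ring

theorem evX (j : ι) : ev f z (dd W₀ (Xv a b j)) =
    ev f z (dd W₀ (a j)) + 1 / 2 * ev f z (dd W₀ (b j)) := by
  rw [dd_X]; simp only [map_add, map_smul, smul_eq_mul]

theorem evY (j : ι) : ev f z (dd W₀ (Yv a b j)) =
    -ev f z (dd W₀ (a j)) + 1 / 2 * ev f z (dd W₀ (b j)) := by
  rw [dd_Y]; simp only [map_add, map_neg, map_smul, smul_eq_mul]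

theorem sX_symm (hs : ∀ i j, s i j = s j i) (hd : ∀ i j, d i j = d j i) (i j : ι) :
    sX s d i j = sX s d j i := by
  unfold sX id1
  rw [hs i j, hd i j]
  simp only [eq_comm]

theorem sY_symm (hs : ∀ i j, s i j = s j i) (hd : ∀ i j, d i j = d j i) (i j : ι) :
    sY s d i j = sY s d j i := by
  unfold sY id1
  rw [hs i j, hd i j]
  simp only [eq_comm]

/-- `P_x f` at a point. -/
theorem PX_at (hs : ∀ i j, s i j = s j i) (hd : ∀ i j, d i j = d j i) :
    ev f z (PX W a b s d v₁) = ∑ i, ∑ j, (vl z (sX s d i j) *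
      (ev f z (dd W₀ (a i) * dd W₀ (a j)) + 1 / 2 * (ev f z (dd W₀ (a i) * dd W₀ (b j)) +
      ev f z (dd W₀ (a j) * dd W₀ (b i))) + 1 / 4 * ev f z (dd W₀ (b i) * dd W₀ (b j))) +
      vl z (al (Xv a b) (sX s d) (W - W₀) i j) *
        (ev f z (dd W₀ (a j)) + 1 / 2 * ev f z (dd W₀ (b j))) +
      vl z (be (Xv a b) (sX s d) (W - W₀) i j) * f.fn z) + vl z v₁ * f.fn z := by
  unfold PX
  rw [Pv_exp W W₀ (Xv a b) (sX_symm s d hs hd) v₁]
  simp only [map_add, map_sum, ev_ml, ev_ml1, evXX, evX, vl_eq, Finset.sum_add_distrib]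
  ring

/-- `P_y f` at a point. -/
theorem PY_at (hs : ∀ i j, s i j = s j i) (hd : ∀ i j, d i j = d j i) :
    ev f z (PY W a b s d v₂) = ∑ i, ∑ j, (vl z (sY s d i j) *
      (ev f z (dd W₀ (a i) * dd W₀ (a j)) - 1 / 2 * (ev f z (dd W₀ (a i) * dd W₀ (b j)) +
      ev f z (dd W₀ (a j) * dd W₀ (b i))) + 1 / 4 * ev f z (dd W₀ (b i) * dd W₀ (b j))) +
      vl z (al (Yv a b) (sY s d) (W - W₀) i j) *
        (-ev f z (dd W₀ (a j)) + 1 / 2 * ev f z (dd W₀ (b j))) +
      vl z (be (Yv a b) (sY s d) (W - W₀) i j) * f.fn z) + vl z v₂ * f.fn z := by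
  unfold PY
  rw [Pv_exp W W₀ (Yv a b) (sY_symm s d hs hd) v₂]
  simp only [map_add, map_sum, ev_ml, ev_ml1, evYY, evY, vl_eq, Finset.sum_add_distrib]
  ring

end pt

/-! ## The coefficients -/

section co

variable (om : Sm E) (z : E) (i j : ι)

theorem ds_X (g : Sm E) : ds (Xv a b i) g = ds (a i) g + (1 / 2 : ℝ) • ds (b i) g := by
  rw [Xv, ds_add, ds_smul]; rfl

theorem ds_Y (g : Sm E) : ds (Yv a b i) g = -ds (a i) g + (1 / 2 : ℝ) • ds (b i) g := by
  rw [Yv, ds_add, ds_smul, show -a i = (-1 : ℝ) • a i by simp, ds_smul]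
  simp [LinearMap.add_apply, LinearMap.smul_apply]

theorem vl_id : vl z (id1 i j : Sm E) = if i = j then 1 else 0 := by
  unfold id1; split <;> simp

theorem ds_id (v : E) : ds v (id1 i j : Sm E) = 0 := by
  unfold id1; split <;> simp

/-- `α_x + α_y`. -/
theorem al_add : vl z (al (Xv a b) (sX s d) om i j) + vl z (al (Yv a b) (sY s d) om i j) =
    2 * vl z (ds (a i) (d i j)) + vl z (ds (b i) (s i j)) +
    2 * (((if i = j then 1 else 0) + vl z (s i j)) * vl z (ds (b i) om) +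
      2 * (vl z (d i j) * vl z (ds (a i) om))) := by
  unfold al
  rw [ds_X, ds_Y, ds_X, ds_Y]
  unfold sX sY
  simp only [map_add, map_sub, map_mul, map_smul, map_neg, ds_id, vl_id, map_ofNat, smul_eq_mul,
    map_zero]
  ring

/-- `α_x - α_y`. -/
theorem al_sub : vl z (al (Xv a b) (sX s d) om i j) - vl z (al (Yv a b) (sY s d) om i j) =
    2 * vl z (ds (a i) (s i j)) + vl z (ds (b i) (d i j)) +
    2 * (2 * (((if i = j then 1 else 0) + vl z (s i j)) * vl z (ds (a i) om)) +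
      vl z (d i j) * vl z (ds (b i) om)) := by
  unfold al
  rw [ds_X, ds_Y, ds_X, ds_Y]
  unfold sX sY
  simp only [map_add, map_sub, map_mul, map_smul, map_neg, ds_id, vl_id, map_ofNat, smul_eq_mul,
    map_zero]
  ring

/-- `β_x + β_y`. -/
theorem be_add : vl z (be (Xv a b) (sX s d) om i j) + vl z (be (Yv a b) (sY s d) om i j) =
    2 * (((if i = j then 1 else 0) + vl z (s i j)) * (vl z (ds (a i) om) * vl z (ds (a j) om) +
      1 / 4 * (vl z (ds (b i) om) * vl z (ds (b j) om)))) +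
    vl z (d i j) * (vl z (ds (a i) om) * vl z (ds (b j) om) +
      vl z (ds (b i) om) * vl z (ds (a j) om)) +
    (2 * vl z (ds (a i) (s i j)) + vl z (ds (b i) (d i j))) * vl z (ds (a j) om) +
    (vl z (ds (a i) (d i j)) + 1 / 2 * vl z (ds (b i) (s i j))) * vl z (ds (b j) om) +
    2 * (((if i = j then 1 else 0) + vl z (s i j)) * (vl z (ds (a i) (ds (a j) om)) +
      1 / 4 * vl z (ds (b i) (ds (b j) om)))) +
    vl z (d i j) * (vl z (ds (a i) (ds (b j) om)) + vl z (ds (a j) (ds (b i) om))) := by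
  unfold be
  simp only [ds_X, ds_Y]
  unfold sX sY
  simp only [map_add, map_sub, map_mul, map_smul, map_neg, ds_id, vl_id, smul_eq_mul,
    map_zero, ds_comm (b i) (a j)]
  ring

/-- `β_x - β_y`. -/
theorem be_sub : vl z (be (Xv a b) (sX s d) om i j) - vl z (be (Yv a b) (sY s d) om i j) =
    ((if i = j then 1 else 0) + vl z (s i j)) * (vl z (ds (a i) om) * vl z (ds (b j) om) +
      vl z (ds (b i) om) * vl z (ds (a j) om)) +
    2 * (vl z (d i j) * (vl z (ds (a i) om) * vl z (ds (a j) om) +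
      1 / 4 * (vl z (ds (b i) om) * vl z (ds (b j) om)))) +
    (vl z (ds (a i) (s i j)) + 1 / 2 * vl z (ds (b i) (d i j))) * vl z (ds (b j) om) +
    (2 * vl z (ds (a i) (d i j)) + vl z (ds (b i) (s i j))) * vl z (ds (a j) om) +
    ((if i = j then 1 else 0) + vl z (s i j)) * (vl z (ds (a i) (ds (b j) om)) +
      vl z (ds (a j) (ds (b i) om))) +
    2 * (vl z (d i j) * (vl z (ds (a i) (ds (a j) om)) +
      1 / 4 * vl z (ds (b i) (ds (b j) om)))) := by
  unfold be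
  simp only [ds_X, ds_Y]
  unfold sX sY
  simp only [map_add, map_sub, map_mul, map_smul, map_neg, ds_id, vl_id, smul_eq_mul,
    map_zero, ds_comm (b i) (a j)]
  ring

end co

end Vale.Agent.P088.R2.H961.F
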