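import Vale.Agent.P088.R2.H961.F.Fr1d
import Vale.Agent.P088.R2.H593.B.Nr

/-!
# P088, zone B1: FR1 in the form of the one-cell statement (`NrS`, `NrR`)
-/

open Finset

noncomputable section

namespace Vale.Agent.P088.R2.H961.F

open Vale.Agent.P088.R2.H464.EP
open Vale.Agent.P088.R2.H516.B (So Ro mu Su)
open Vale.Agent.P088.R2.H856.B (vv su_add su_smul su_ml su_dv su_sum su_sub)
open Vale.Agent.P088.R2.H593.B (NrS NrR)

variable {ι E : Type} [Fintype ι] [DecidableEq ι] [NormedAddCommGroup E] [NormedSpace ℝ E]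

theorem P1_eq (T : Dat ι E) (f : TE E) (z : E) : P1 T f z = H593.B.P1 T f z := rfl

theorem P2_eq (T : Dat ι E) (f : TE E) (z : E) : P2 T f z = H593.B.P2 T f z := rfl

omit [Fintype ι] [DecidableEq ι] in
theorem su_dd {Z : Set E} {f : TE E} (hf : Su Z f) (W : Sm E) (v : E) : Su Z (dd W v f) :=
  su_add (su_dv hf v) (su_ml hf (ds v W))

omit [DecidableEq ι] in
theorem su_Pv {Z : Set E} {f : TE E} (hf : Su Z f) (W : Sm E) (X : ι → E) (s : ι → ι → Sm E)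
    (v : Sm E) : Su Z (Pv W X s v f) := by
  unfold Pv
  rw [LinearMap.add_apply, LinearMap.sum_apply]
  refine su_add (su_sum _ fun i _ => ?_) (su_ml hf v)
  rw [LinearMap.sum_apply]
  exact su_sum _ fun j _ => su_dd (su_ml (su_dd hf W (X j)) (s i j)) W (X i)

theorem su_St {Z : Set E} {f : TE E} (hf : Su Z f) (W : Sm E) (a b : ι → E) (s d : ι → ι → Sm E)
    (v₁ v₂ : Sm E) : Su Z (St W a b s d v₁ v₂ f) :=
  su_smul (su_add (su_Pv hf W _ _ v₁) (su_Pv hf W _ _ v₂)) (1 / 2)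

theorem su_Rt {Z : Set E} {f : TE E} (hf : Su Z f) (W : Sm E) (a b : ι → E) (s d : ι → ι → Sm E)
    (v₁ v₂ : Sm E) : Su Z (Rt W a b s d v₁ v₂ f) :=
  su_smul (su_sub (su_Pv hf W _ _ v₁) (su_Pv hf W _ _ v₂)) (1 / 2)

theorem P1_nn {T : Dat ι E} {f : TE E} {z : E} (he : 0 < (T.e : E → ℝ) z) : 0 ≤ P1 T f z := by
  unfold P1; positivity

theorem P2_nn {T : Dat ι E} {f : TE E} {z : E} (hm : 0 < (mu T : E → ℝ) z) : 0 ≤ P2 T f z := by
  unfold P2; positivity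

/-- The hypotheses of FR1 on the zone `Z`, with the relative error `del`. -/
structure PbZ (T : Dat ι E) (Z : Set E) (W : Sm E) (s d : ι → ι → Sm E) (v₁ v₂ : Sm E)
    (del : E → ℝ) : Prop where
  he : ∀ z ∈ Z, 0 < (T.e : E → ℝ) z
  hm : ∀ z ∈ Z, 0 < (mu T : E → ℝ) z
  hs : ∀ i j, s i j = s j i
  hd : ∀ i j, d i j = d j i
  pb : ∀ z ∈ Z, ∃ δ, 11 * ((Fintype.card ι : ℝ) + 1) ^ 2 * δ ≤ del z ∧
    Pb T.a T.b s d (W - T.w) v₁ v₂ δ ((T.e : E → ℝ) z)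
      (Real.sqrt ((mu T : E → ℝ) z / (T.e : E → ℝ) z)) z

variable {T : Dat ι E} {Z : Set E} {W : Sm E} {s d : ι → ι → Sm E} {v₁ v₂ : Sm E}
  {del h : E → ℝ}

/-- **FR1S** in the form `NrS`. -/
theorem nrS (H : PbZ T Z W s d v₁ v₂ del) (h0 : ∀ z ∈ Z, 0 ≤ h z) {f : TE E} (hf : Su Z f) :
    NrS T Z del h f (St W T.a T.b s d v₁ v₂ f) where
  su := su_St hf W T.a T.b s d v₁ v₂
  le := fun z hz => by
    obtain ⟨δ, h1, h2⟩ := H.pb z hz
    refine (fr1S_T (H.he z hz) (H.hm z hz) H.hs H.hd h2 f).trans ?_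
    have h3 := P1_nn (T := T) (f := f) (H.he z hz)
    rw [← P1_eq]
    exact mul_le_mul_of_nonneg_right (by linarith [h0 z hz]) h3

/-- **FR1R** in the form `NrR`. -/
theorem nrR (H : PbZ T Z W s d v₁ v₂ del) (h0 : ∀ z ∈ Z, 0 ≤ h z) {f : TE E} (hf : Su Z f) :
    NrR T Z del h f (Rt W T.a T.b s d v₁ v₂ f) where
  su := su_Rt hf W T.a T.b s d v₁ v₂
  le := fun z hz => by
    obtain ⟨δ, h1, h2⟩ := H.pb z hz
    refine (fr1R_T (H.he z hz) (H.hm z hz) H.hs H.hd h2 f).trans ?_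
    have h3 := P1_nn (T := T) (f := f) (H.he z hz)
    have h4 := P2_nn (T := T) (f := f) (H.hm z hz)
    rw [← P1_eq, ← P2_eq]
    have h5 := mul_le_mul_of_nonneg_right h1 h4
    have h6 := mul_nonneg (h0 z hz) h3
    linarith

end Vale.Agent.P088.R2.H961.F
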