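import Vale.Agent.P088.R2.H961.F.FrV
import Vale.Agent.P088.R2.H961.F.Nrm
import Vale.Agent.P088.R2.H593.B.Cell

/-!
# P088, zone B1: the data of a cell (interface)

`M Mᵀ = s₁(p₀)`, `N = M⁻¹`, `E = E₀ e^{2 l(p)}`, `|q|² = |N (x - y)|²`, `W₀ = E |q|² / 2 + φ(p)`;
`l`, `φ` smooth and convex on the whole space, the true ones on the cell `Z`.
-/

open Finset
open scoped ContDiff

noncomputable section

namespace Vale.Agent.P088.R2.H961.F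

open Vale.Agent.P088.LR Vale.Agent.P088.HY
open Vale.Agent.P088.R2.H464.EP (Sm TE Dat)
open Vale.Agent.P088.R2.H961.GW (slx sly Sl)
open Vale.Agent.P088.R2.H961.S (Fram mid)
open Vale.Agent.P088.R2.H676.C (tD)
open Vale.Agent.P088.R2.H516.B (mu Zn)
open Vale.Agent.P088.R2.H856.B (Zc)

/-- The data of a cell. -/
structure CD (n : ℕ) where
  M : Matrix (Fin n) (Fin n) ℝ
  N : Matrix (Fin n) (Fin n) ℝ
  nm : N * M = 1
  E₀ : ℝ
  hE : 0 < E₀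
  l : V n → ℝ
  φ : V n → ℝ
  cl : ContDiff ℝ ∞ l
  cφ : ContDiff ℝ ∞ φ

variable {n : ℕ}

/-- The frame. -/
def CD.Fr (c : CD n) : Fram (Fin n) (mid (Fin n)) := frM c.M c.N c.nm

/-- The model. -/
abbrev CD.T (c : CD n) : Dat (Fin n) (VV n) := tD c.Fr c.E₀ c.hE c.l c.φ c.cl c.cφ

/-- The cell data are good on `Z`: convexity (on the whole space), and helper516's and helper856's
pointwise conditions. -/
structure CD.Ok (c : CD n) (Z : Set (VV n)) (Nf : Sm (VV n)) (Lam eps : ℝ) : Prop where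
  pl : ∀ z (x : Fin n → ℝ), 0 ≤ ∑ i, ∑ j, (c.T.l2 i j : VV n → ℝ) z * x i * x j
  pφ : ∀ z (x : Fin n → ℝ), 0 ≤ ∑ i, ∑ j, (c.T.φ2 i j : VV n → ℝ) z * x i * x j
  zn : Zn c.T Z Nf Lam eps
  zc : Zc c.T Z Nf Lam
  hl : ∀ z ∈ Z, 1 ≤ Lam * ∑ j, (c.T.l1 j : VV n → ℝ) z ^ 2

/-- The true weight and metrics against the model: hypothesis of FR1 (relative error `del`). -/
def CD.Pb (c : CD n) (Z : Set (VV n)) (W : Sm (VV n)) {s₁ s₂ : MF n}
    (h₁ : ∀ i j, ContDiff ℝ ∞ fun x => s₁ x i j) (h₂ : ∀ i j, ContDiff ℝ ∞ fun x => s₂ x i j)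
    (del : VV n → ℝ) : Prop :=
  PbZ c.T Z W (hS (cX c.N h₁) (cY c.N h₂)) (hD (cX c.N h₁) (cY c.N h₂)) 0 0 del

/-! ## Values -/

section val

variable (c : CD n) (z : VV n) (i j : Fin n)

theorem mid_b : mid (Fin n) (c.T.b i) = c.M.col i := by
  change mid (Fin n) (c.M.col i, c.M.col i) = _
  rw [S.mid_apply]
  change (1 / 2 : ℝ) • (c.M.col i + c.M.col i) = _
  rw [← two_smul ℝ (c.M.col i), smul_smul]; norm_num

theorem T_e : (c.T.e : VV n → ℝ) z = c.E₀ * Real.exp (2 * c.l ((1 / 2 : ℝ) • (z.1 + z.2))) := rfl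

theorem T_φ : (c.T.φ : VV n → ℝ) z = c.φ ((1 / 2 : ℝ) • (z.1 + z.2)) := rfl

theorem T_q : (c.T.q i : VV n → ℝ) z = ∑ k, c.N i k * (z.1 k - z.2 k) := by
  change (∑ k, c.N i k • ((ContinuousLinearMap.proj k).comp (ContinuousLinearMap.fst ℝ (V n) (V n)) -
        (ContinuousLinearMap.proj k).comp (ContinuousLinearMap.snd ℝ (V n) (V n))) : VV n →L[ℝ] ℝ) z = _
  rw [_root_.sum_apply]
  rfl

theorem T_qq : (c.T.qq : VV n → ℝ) z = ∑ i, (∑ k, c.N i k * (z.1 k - z.2 k)) ^ 2 := by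
  rw [Dat.qq, sm_sum']
  refine Finset.sum_congr rfl fun i _ => ?_
  change (c.T.q i : VV n → ℝ) z * (c.T.q i : VV n → ℝ) z = _
  rw [T_q, _root_.sq]

theorem T_l1 : (c.T.l1 i : VV n → ℝ) z =
    fderiv ℝ c.l ((1 / 2 : ℝ) • (z.1 + z.2)) (c.M.col i) := by
  have h := S.ds_bs (π := mid (Fin n)) c.l c.cl (c.T.b i) z
  rw [mid_b] at h
  exact h

theorem T_φ1 : (c.T.φ1 i : VV n → ℝ) z =
    fderiv ℝ c.φ ((1 / 2 : ℝ) • (z.1 + z.2)) (c.M.col i) := by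
  have h := S.ds_bs (π := mid (Fin n)) c.φ c.cφ (c.T.b i) z
  rw [mid_b] at h
  exact h

theorem fd_mid {h : V n → ℝ} (ch : ContDiff ℝ ∞ h) (v : VV n) :
    fderiv ℝ (fun w : VV n => h ((1 / 2 : ℝ) • (w.1 + w.2))) z v =
      fderiv ℝ h ((1 / 2 : ℝ) • (z.1 + z.2)) (mid (Fin n) v) :=
  S.ds_bs (π := mid (Fin n)) h ch v z

theorem cd_fd {h : V n → ℝ} (ch : ContDiff ℝ ∞ h) (v : V n) :
    ContDiff ℝ ∞ fun p => fderiv ℝ h p v :=
  (ch.fderiv_right (m := ∞) (by simp)).clm_apply contDiff_const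

theorem T_l2 : (c.T.l2 i j : VV n → ℝ) z = fderiv ℝ (fun p => fderiv ℝ c.l p (c.M.col j))
    ((1 / 2 : ℝ) • (z.1 + z.2)) (c.M.col i) := by
  have e : (c.T.l1 j : VV n → ℝ) = fun w =>
      (fun p => fderiv ℝ c.l p (c.M.col j)) ((1 / 2 : ℝ) • (w.1 + w.2)) :=
    funext fun w => T_l1 c w j
  change fderiv ℝ (c.T.l1 j : VV n → ℝ) z (c.T.b i) = _
  rw [e, fd_mid z (cd_fd c.cl _), mid_b]

theorem T_φ2 : (c.T.φ2 i j : VV n → ℝ) z = fderiv ℝ (fun p => fderiv ℝ c.φ p (c.M.col j))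
    ((1 / 2 : ℝ) • (z.1 + z.2)) (c.M.col i) := by
  have e : (c.T.φ1 j : VV n → ℝ) = fun w =>
      (fun p => fderiv ℝ c.φ p (c.M.col j)) ((1 / 2 : ℝ) • (w.1 + w.2)) :=
    funext fun w => T_φ1 c w j
  change fderiv ℝ (c.T.φ1 j : VV n → ℝ) z (c.T.b i) = _
  rw [e, fd_mid z (cd_fd c.cφ _), mid_b]

/-- The model weight. -/
theorem T_w : (c.T.w : VV n → ℝ) z = 1 / 2 * (c.E₀ * Real.exp (2 * c.l ((1 / 2 : ℝ) • (z.1 + z.2))) *
    ∑ i, (∑ k, c.N i k * (z.1 k - z.2 k)) ^ 2) + c.φ ((1 / 2 : ℝ) • (z.1 + z.2)) := by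
  change 1 / 2 * ((c.T.e : VV n → ℝ) z * (c.T.qq : VV n → ℝ) z) + (c.T.φ : VV n → ℝ) z = _
  rw [T_qq, T_e, T_φ]

/-- Second derivatives on a sum. -/
theorem sum2_fd {h : V n → ℝ} (ch : ContDiff ℝ ∞ h) (p : V n) (w : Fin n → V n) (x : Fin n → ℝ) :
    ∑ i, ∑ j, fderiv ℝ (fun p => fderiv ℝ h p (w j)) p (w i) * x i * x j =
      fderiv ℝ (fun p => fderiv ℝ h p (∑ j, x j • w j)) p (∑ i, x i • w i) := by
  have e : (fun p => fderiv ℝ h p (∑ j, x j • w j)) =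
      fun p => ∑ j, x j * fderiv ℝ h p (w j) := by
    funext p; simp
  have d : ∀ j, DifferentiableAt ℝ (fun p => fderiv ℝ h p (w j)) p := fun j =>
    (cd_fd ch (w j)).differentiable (by simp) p
  rw [e, fderiv_fun_sum fun j _ => (d j).const_mul (x j), _root_.sum_apply, Finset.sum_comm]
  refine Finset.sum_congr rfl fun j _ => ?_
  rw [fderiv_const_mul (d j), map_sum]
  refine Finset.sum_congr rfl fun i _ => ?_
  simp only [_root_.smul_apply, map_smul, smul_eq_mul]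
  ring

/-- Convexity of `l` gives `pl`. -/
theorem pl_of (h : ∀ p v, 0 ≤ fderiv ℝ (fun p => fderiv ℝ c.l p v) p v) (x : Fin n → ℝ) :
    0 ≤ ∑ i, ∑ j, (c.T.l2 i j : VV n → ℝ) z * x i * x j := by
  simp only [T_l2]
  rw [sum2_fd c.cl ((1 / 2 : ℝ) • (z.1 + z.2)) (fun j => c.M.col j) x]
  exact h _ _

/-- Convexity of `φ` gives `pφ`. -/
theorem pφ_of (h : ∀ p v, 0 ≤ fderiv ℝ (fun p => fderiv ℝ c.φ p v) p v) (x : Fin n → ℝ) :
    0 ≤ ∑ i, ∑ j, (c.T.φ2 i j : VV n → ℝ) z * x i * x j := by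
  simp only [T_φ2]
  rw [sum2_fd c.cφ ((1 / 2 : ℝ) • (z.1 + z.2)) (fun j => c.M.col j) x]
  exact h _ _

end val

end Vale.Agent.P088.R2.H961.F
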