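import Vale.Agent.P088.R2.H961.F.Fr1

/-!
# P088, zone B1: rows FR1S, FR1R
-/

open Finset

noncomputable section

namespace Vale.Agent.P088.R2.H961.F

open Vale.Agent.P088.R2.H464.EP

variable {ι E : Type} [Fintype ι] [DecidableEq ι] [NormedAddCommGroup E] [NormedSpace ℝ E]

variable (W W₀ : Sm E) (a b : ι → E) (s d : ι → ι → Sm E) (v₁ v₂ : Sm E) (f : TE E) (z : E)

/-- `(D_i D_j f)(z)`. -/
def eDD (i j : ι) : ℝ := ev f z (dd W₀ (a i) * dd W₀ (a j))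

/-- `(D_i K_j f)(z)`. -/
def eDK (i j : ι) : ℝ := ev f z (dd W₀ (a i) * dd W₀ (b j))

/-- `(K_i K_j f)(z)`. -/
def eKK (i j : ι) : ℝ := ev f z (dd W₀ (b i) * dd W₀ (b j))

/-- `(D_j f)(z)`. -/
def eD (j : ι) : ℝ := ev f z (dd W₀ (a j))

/-- `(K_j f)(z)`. -/
def eK (j : ι) : ℝ := ev f z (dd W₀ (b j))

theorem sum_id (g : ι → ι → ℝ) : ∑ i, ∑ j, (if i = j then (1 : ℝ) else 0) * g i j = ∑ i, g i i := by
  refine Finset.sum_congr rfl fun i _ => ?_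
  simp

/-- `S_t - S` at a point. -/
theorem St_at (hs : ∀ i j, s i j = s j i) (hd : ∀ i j, d i j = d j i) :
    ev f z (St W a b s d v₁ v₂) - ∑ i, (eDD W₀ a f z i i + 1 / 4 * eKK W₀ b f z i i) =
      (∑ i, ∑ j, (vl z (s i j) * (eDD W₀ a f z i j + 1 / 4 * eKK W₀ b f z i j) +
      vl z (d i j) * (1 / 2 * (eDK W₀ a b f z i j + eDK W₀ a b f z j i)) +
      1 / 2 * ((vl z (al (Xv a b) (sX s d) (W - W₀) i j) -
        vl z (al (Yv a b) (sY s d) (W - W₀) i j)) * eD W₀ a f z j) +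
      1 / 4 * ((vl z (al (Xv a b) (sX s d) (W - W₀) i j) +
        vl z (al (Yv a b) (sY s d) (W - W₀) i j)) * eK W₀ b f z j) +
      1 / 2 * ((vl z (be (Xv a b) (sX s d) (W - W₀) i j) +
        vl z (be (Yv a b) (sY s d) (W - W₀) i j)) * f.fn z))) +
      1 / 2 * ((vl z v₁ + vl z v₂) * f.fn z) := by
  have h1 := PX_at W W₀ a b s d v₁ f z hs hd
  have h2 := PY_at W W₀ a b s d v₂ f z hs hd
  rw [St, map_smul, map_add, h1, h2, smul_eq_mul,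
    ← sum_id fun i j => eDD W₀ a f z i j + 1 / 4 * eKK W₀ b f z i j]
  rw [show ∀ A B x y P : ℝ, 1 / 2 * ((A + x) + (B + y)) - P =
    (1 / 2 * A + 1 / 2 * B - P) + 1 / 2 * (x + y) by intros; ring]
  congr 1
  · simp only [Finset.mul_sum, ← Finset.sum_add_distrib, ← Finset.sum_sub_distrib]
    refine Finset.sum_congr rfl fun i _ => Finset.sum_congr rfl fun j _ => ?_
    unfold sX sY eDD eDK eKK eD eK
    simp only [map_add, map_sub, vl_id]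
    ring
  · ring

/-- `R_t - R` at a point. -/
theorem Rt_at (hs : ∀ i j, s i j = s j i) (hd : ∀ i j, d i j = d j i) :
    ev f z (Rt W a b s d v₁ v₂) - ∑ i, eDK W₀ a b f z i i =
      (∑ i, ∑ j, (vl z (d i j) * (eDD W₀ a f z i j + 1 / 4 * eKK W₀ b f z i j) +
      vl z (s i j) * (1 / 2 * (eDK W₀ a b f z i j + eDK W₀ a b f z j i)) +
      1 / 2 * ((vl z (al (Xv a b) (sX s d) (W - W₀) i j) +
        vl z (al (Yv a b) (sY s d) (W - W₀) i j)) * eD W₀ a f z j) +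
      1 / 4 * ((vl z (al (Xv a b) (sX s d) (W - W₀) i j) -
        vl z (al (Yv a b) (sY s d) (W - W₀) i j)) * eK W₀ b f z j) +
      1 / 2 * ((vl z (be (Xv a b) (sX s d) (W - W₀) i j) -
        vl z (be (Yv a b) (sY s d) (W - W₀) i j)) * f.fn z))) +
      1 / 2 * ((vl z v₁ - vl z v₂) * f.fn z) := by
  have h1 := PX_at W W₀ a b s d v₁ f z hs hd
  have h2 := PY_at W W₀ a b s d v₂ f z hs hd
  have e0 : ∑ i, eDK W₀ a b f z i i = ∑ i, ∑ j, (if i = j then (1 : ℝ) else 0) *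
      (1 / 2 * (eDK W₀ a b f z i j + eDK W₀ a b f z j i)) := by
    rw [sum_id]
    exact Finset.sum_congr rfl fun i _ => by ring
  rw [Rt, map_smul, map_sub, h1, h2, smul_eq_mul, e0]
  rw [show ∀ A B x y P : ℝ, 1 / 2 * ((A + x) - (B + y)) - P =
    (1 / 2 * A - 1 / 2 * B - P) + 1 / 2 * (x - y) by intros; ring]
  congr 1
  · simp only [Finset.mul_sum, ← Finset.sum_sub_distrib]
    refine Finset.sum_congr rfl fun i _ => Finset.sum_congr rfl fun j _ => ?_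
    unfold sX sY eDD eDK eKK eD eK
    simp only [map_add, map_sub, vl_id]
    ring
  · ring

/-! ## The bounds -/

variable {W W₀ a b s d v₁ v₂} {δ e r : ℝ} {z}

theorem sum2_abs (g G : ι → ι → ℝ) (h : ∀ i j, |g i j| ≤ G i j) :
    |∑ i, ∑ j, g i j| ≤ ∑ i, ∑ j, G i j :=
  (Finset.abs_sum_le_sum_abs _ _).trans (Finset.sum_le_sum fun i _ =>
    (Finset.abs_sum_le_sum_abs _ _).trans (Finset.sum_le_sum fun j _ => h i j))

/-- **FR1S.** -/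
theorem fr1S (hs : ∀ i j, s i j = s j i) (hd : ∀ i j, d i j = d j i)
    (h : Pb a b s d (W - W₀) v₁ v₂ δ e r z) :
    |ev f z (St W a b s d v₁ v₂) - ∑ i, (eDD W₀ a f z i i + 1 / 4 * eKK W₀ b f z i i)| ≤
      11 * ((Fintype.card ι : ℝ) + 1) ^ 2 * δ *
        ((∑ i, ∑ j, (|eDD W₀ a f z i j| + r * |eDK W₀ a b f z i j| + |eKK W₀ b f z i j|)) +
        e * r * (∑ j, (|eD W₀ a f z j| + |eK W₀ b f z j|)) + e * |f.fn z|) := by
  rw [St_at W W₀ a b s d v₁ v₂ f z hs hd]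
  obtain ⟨e1, er1, d1, hm, hr⟩ := h.basic
  have h0 := h.δ0
  have r0 := h.r0
  have n0 : (0 : ℝ) ≤ Fintype.card ι := Nat.cast_nonneg _
  set n : ℝ := (Fintype.card ι : ℝ) with hn
  have t1 : ∀ i j, |vl z (s i j) * (eDD W₀ a f z i j + 1 / 4 * eKK W₀ b f z i j) +
      vl z (d i j) * (1 / 2 * (eDK W₀ a b f z i j + eDK W₀ a b f z j i)) +
      1 / 2 * ((vl z (al (Xv a b) (sX s d) (W - W₀) i j) -
        vl z (al (Yv a b) (sY s d) (W - W₀) i j)) * eD W₀ a f z j) +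
      1 / 4 * ((vl z (al (Xv a b) (sX s d) (W - W₀) i j) +
        vl z (al (Yv a b) (sY s d) (W - W₀) i j)) * eK W₀ b f z j) +
      1 / 2 * ((vl z (be (Xv a b) (sX s d) (W - W₀) i j) +
        vl z (be (Yv a b) (sY s d) (W - W₀) i j)) * f.fn z)| ≤
      δ * (|eDD W₀ a f z i j| + 1 / 4 * |eKK W₀ b f z i j|) +
      δ * r * (1 / 2 * (|eDK W₀ a b f z i j| + |eDK W₀ a b f z j i|)) +
      1 / 2 * (13 * (δ * (e * r)) * |eD W₀ a f z j|) +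
      1 / 4 * (11 * (δ * (e * r ^ 2)) * |eK W₀ b f z j|) +
      1 / 2 * (20 * (δ * e) * |f.fn z|) := fun i j =>
    add_bd (add_bd (add_bd (add_bd
      (mul_bd (h.s0 i j) (add_bd le_rfl (cmul_bd (1 / 4) (by norm_num) le_rfl)))
      (mul_bd (h.d0 i j) (cmul_bd (1 / 2) (by norm_num) (add_bd le_rfl le_rfl))))
      (cmul_bd (1 / 2) (by norm_num) (mul_bd (h.al_sub i j) le_rfl)))
      (cmul_bd (1 / 4) (by norm_num) (mul_bd (h.al_add i j) le_rfl)))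
      (cmul_bd (1 / 2) (by norm_num) (mul_bd (h.be_add i j) le_rfl))
  have t2 := add_bd (sum2_abs _ _ t1)
    (cmul_bd (1 / 2) (by norm_num) (mul_bd h.vp (le_refl |f.fn z|)))
  refine t2.trans ?_
  have sw : ∑ i, ∑ j, |eDK W₀ a b f z j i| = ∑ i, ∑ j, |eDK W₀ a b f z i j| := Finset.sum_comm
  have cn : ∀ x : ℝ, ∑ _i : ι, x = n * x := fun x => by
    rw [Finset.sum_const, Finset.card_univ, nsmul_eq_mul]
  have e2 : ∑ i, ∑ j, (δ * (|eDD W₀ a f z i j| + 1 / 4 * |eKK W₀ b f z i j|) +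
      δ * r * (1 / 2 * (|eDK W₀ a b f z i j| + |eDK W₀ a b f z j i|)) +
      1 / 2 * (13 * (δ * (e * r)) * |eD W₀ a f z j|) +
      1 / 4 * (11 * (δ * (e * r ^ 2)) * |eK W₀ b f z j|) +
      1 / 2 * (20 * (δ * e) * |f.fn z|)) =
      δ * (∑ i, ∑ j, |eDD W₀ a f z i j|) + 1 / 4 * δ * (∑ i, ∑ j, |eKK W₀ b f z i j|) +
      δ * r * (∑ i, ∑ j, |eDK W₀ a b f z i j|) +
      n * (13 / 2 * (δ * (e * r)) * ∑ j, |eD W₀ a f z j|) +
      n * (11 / 4 * (δ * (e * r ^ 2)) * ∑ j, |eK W₀ b f z j|) +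
      n * (n * (10 * (δ * e) * |f.fn z|)) := by
    have s1 : δ * r * (∑ i, ∑ j, |eDK W₀ a b f z i j|) =
        1 / 2 * (δ * r) * (∑ i, ∑ j, |eDK W₀ a b f z i j|) +
        1 / 2 * (δ * r) * (∑ i, ∑ j, |eDK W₀ a b f z j i|) := by rw [sw]; ring
    rw [s1, ← cn (13 / 2 * (δ * (e * r)) * ∑ j, |eD W₀ a f z j|),
      ← cn (11 / 4 * (δ * (e * r ^ 2)) * ∑ j, |eK W₀ b f z j|),
      ← cn (n * (10 * (δ * e) * |f.fn z|)), ← cn (10 * (δ * e) * |f.fn z|)]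
    simp only [Finset.mul_sum, ← Finset.sum_add_distrib]
    exact Finset.sum_congr rfl fun i _ => Finset.sum_congr rfl fun j _ => by ring
  rw [e2]
  have A1 : 0 ≤ ∑ i, ∑ j, |eDD W₀ a f z i j| := by positivity
  have A2 : 0 ≤ ∑ i, ∑ j, |eKK W₀ b f z i j| := by positivity
  have A3 : 0 ≤ ∑ i, ∑ j, |eDK W₀ a b f z i j| := by positivity
  have A4 : 0 ≤ ∑ j, |eD W₀ a f z j| := by positivity
  have A5 : 0 ≤ ∑ j, |eK W₀ b f z j| := by positivity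
  have A6 := abs_nonneg (f.fn z)
  have e3 : (∑ i, ∑ j, (|eDD W₀ a f z i j| + r * |eDK W₀ a b f z i j| + |eKK W₀ b f z i j|)) =
      (∑ i, ∑ j, |eDD W₀ a f z i j|) + r * (∑ i, ∑ j, |eDK W₀ a b f z i j|) +
        ∑ i, ∑ j, |eKK W₀ b f z i j| := by
    simp only [Finset.mul_sum, Finset.sum_add_distrib]
  rw [e3, Finset.sum_add_distrib]
  set S1 := ∑ i, ∑ j, |eDD W₀ a f z i j|
  set S2 := ∑ i, ∑ j, |eKK W₀ b f z i j|
  set S3 := ∑ i, ∑ j, |eDK W₀ a b f z i j|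
  set S4 := ∑ j, |eD W₀ a f z j|
  set S5 := ∑ j, |eK W₀ b f z j|
  have C1 : 1 ≤ 11 * (n + 1) ^ 2 := by nlinarith
  have C2 : n * (13 / 2) ≤ 11 * (n + 1) ^ 2 := by nlinarith
  have C3 : n * (n * 10) + 1 / 2 ≤ 11 * (n + 1) ^ 2 := by nlinarith
  have de : 0 ≤ δ * (e * r) := mul_nonneg h0 (by linarith)
  have de' : 0 ≤ δ * e := mul_nonneg h0 (by linarith)
  have dr : 0 ≤ δ * r := mul_nonneg h0 r0.le
  have k1 : δ * S1 ≤ 11 * (n + 1) ^ 2 * (δ * S1) := le_mul_of_one_le_left (mul_nonneg h0 A1) C1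
  have k2 : 1 / 4 * δ * S2 ≤ 11 * (n + 1) ^ 2 * (δ * S2) := by
    have := le_mul_of_one_le_left (mul_nonneg h0 A2) C1
    nlinarith [mul_nonneg h0 A2]
  have k3 : δ * r * S3 ≤ 11 * (n + 1) ^ 2 * (δ * r * S3) :=
    le_mul_of_one_le_left (mul_nonneg dr A3) C1
  have k4 : n * (13 / 2 * (δ * (e * r)) * S4) ≤ 11 * (n + 1) ^ 2 * (δ * (e * r) * S4) := by
    calc n * (13 / 2 * (δ * (e * r)) * S4) = n * (13 / 2) * (δ * (e * r) * S4) := by ring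
      _ ≤ _ := mul_le_mul_of_nonneg_right C2 (mul_nonneg de A4)
  have k5 : n * (11 / 4 * (δ * (e * r ^ 2)) * S5) ≤ 11 * (n + 1) ^ 2 * (δ * (e * r) * S5) := by
    have q : δ * (e * r ^ 2) * S5 ≤ δ * (e * r) * S5 :=
      mul_le_mul_of_nonneg_right (mul_le_mul_of_nonneg_left hm h0) A5
    calc n * (11 / 4 * (δ * (e * r ^ 2)) * S5) = n * (11 / 4) * (δ * (e * r ^ 2) * S5) := by ring
      _ ≤ n * (11 / 4) * (δ * (e * r) * S5) := mul_le_mul_of_nonneg_left q (by positivity)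
      _ ≤ _ := mul_le_mul_of_nonneg_right (by nlinarith) (mul_nonneg de A5)
  have k6 : n * (n * (10 * (δ * e) * |f.fn z|)) + 1 / 2 * (δ * e * |f.fn z|) ≤
      11 * (n + 1) ^ 2 * (δ * e * |f.fn z|) := by
    calc _ = (n * (n * 10) + 1 / 2) * (δ * e * |f.fn z|) := by ring
      _ ≤ _ := mul_le_mul_of_nonneg_right C3 (mul_nonneg de' A6)
  calc _ ≤ 11 * (n + 1) ^ 2 * (δ * S1) + 11 * (n + 1) ^ 2 * (δ * S2) +
        11 * (n + 1) ^ 2 * (δ * r * S3) + 11 * (n + 1) ^ 2 * (δ * (e * r) * S4) +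
        11 * (n + 1) ^ 2 * (δ * (e * r) * S5) + 11 * (n + 1) ^ 2 * (δ * e * |f.fn z|) := by
        linarith
    _ = _ := by ring

/-- **FR1R.** -/
theorem fr1R (hs : ∀ i j, s i j = s j i) (hd : ∀ i j, d i j = d j i)
    (h : Pb a b s d (W - W₀) v₁ v₂ δ e r z) :
    |ev f z (Rt W a b s d v₁ v₂) - ∑ i, eDK W₀ a b f z i i| ≤
      11 * ((Fintype.card ι : ℝ) + 1) ^ 2 * δ *
        ((∑ i, ∑ j, (|eDK W₀ a b f z i j| + r * (|eDD W₀ a f z i j| + |eKK W₀ b f z i j|))) +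
        e * r ^ 2 * (∑ j, |eD W₀ a f z j|) + e * r * (∑ j, |eK W₀ b f z j|) +
        e * r * |f.fn z|) := by
  rw [Rt_at W W₀ a b s d v₁ v₂ f z hs hd]
  obtain ⟨e1, er1, d1, hm, hr⟩ := h.basic
  have h0 := h.δ0
  have r0 := h.r0
  have n0 : (0 : ℝ) ≤ Fintype.card ι := Nat.cast_nonneg _
  set n : ℝ := (Fintype.card ι : ℝ) with hn
  have t1 : ∀ i j, |vl z (d i j) * (eDD W₀ a f z i j + 1 / 4 * eKK W₀ b f z i j) +
      vl z (s i j) * (1 / 2 * (eDK W₀ a b f z i j + eDK W₀ a b f z j i)) +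
      1 / 2 * ((vl z (al (Xv a b) (sX s d) (W - W₀) i j) +
        vl z (al (Yv a b) (sY s d) (W - W₀) i j)) * eD W₀ a f z j) +
      1 / 4 * ((vl z (al (Xv a b) (sX s d) (W - W₀) i j) -
        vl z (al (Yv a b) (sY s d) (W - W₀) i j)) * eK W₀ b f z j) +
      1 / 2 * ((vl z (be (Xv a b) (sX s d) (W - W₀) i j) -
        vl z (be (Yv a b) (sY s d) (W - W₀) i j)) * f.fn z)| ≤
      δ * r * (|eDD W₀ a f z i j| + 1 / 4 * |eKK W₀ b f z i j|) +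
      δ * (1 / 2 * (|eDK W₀ a b f z i j| + |eDK W₀ a b f z j i|)) +
      1 / 2 * (11 * (δ * (e * r ^ 2)) * |eD W₀ a f z j|) +
      1 / 4 * (13 * (δ * (e * r)) * |eK W₀ b f z j|) +
      1 / 2 * (20 * (δ * (e * r)) * |f.fn z|) := fun i j =>
    add_bd (add_bd (add_bd (add_bd
      (mul_bd (h.d0 i j) (add_bd le_rfl (cmul_bd (1 / 4) (by norm_num) le_rfl)))
      (mul_bd (h.s0 i j) (cmul_bd (1 / 2) (by norm_num) (add_bd le_rfl le_rfl))))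
      (cmul_bd (1 / 2) (by norm_num) (mul_bd (h.al_add i j) le_rfl)))
      (cmul_bd (1 / 4) (by norm_num) (mul_bd (h.al_sub i j) le_rfl)))
      (cmul_bd (1 / 2) (by norm_num) (mul_bd (h.be_sub i j) le_rfl))
  have t2 := add_bd (sum2_abs _ _ t1)
    (cmul_bd (1 / 2) (by norm_num) (mul_bd h.vm (le_refl |f.fn z|)))
  refine t2.trans ?_
  have sw : ∑ i, ∑ j, |eDK W₀ a b f z j i| = ∑ i, ∑ j, |eDK W₀ a b f z i j| := Finset.sum_comm
  have cn : ∀ x : ℝ, ∑ _i : ι, x = n * x := fun x => by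
    rw [Finset.sum_const, Finset.card_univ, nsmul_eq_mul]
  have e2 : ∑ i, ∑ j, (δ * r * (|eDD W₀ a f z i j| + 1 / 4 * |eKK W₀ b f z i j|) +
      δ * (1 / 2 * (|eDK W₀ a b f z i j| + |eDK W₀ a b f z j i|)) +
      1 / 2 * (11 * (δ * (e * r ^ 2)) * |eD W₀ a f z j|) +
      1 / 4 * (13 * (δ * (e * r)) * |eK W₀ b f z j|) +
      1 / 2 * (20 * (δ * (e * r)) * |f.fn z|)) =
      δ * r * (∑ i, ∑ j, |eDD W₀ a f z i j|) + 1 / 4 * (δ * r) * (∑ i, ∑ j, |eKK W₀ b f z i j|) +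
      δ * (∑ i, ∑ j, |eDK W₀ a b f z i j|) +
      n * (11 / 2 * (δ * (e * r ^ 2)) * ∑ j, |eD W₀ a f z j|) +
      n * (13 / 4 * (δ * (e * r)) * ∑ j, |eK W₀ b f z j|) +
      n * (n * (10 * (δ * (e * r)) * |f.fn z|)) := by
    have s1 : δ * (∑ i, ∑ j, |eDK W₀ a b f z i j|) =
        1 / 2 * δ * (∑ i, ∑ j, |eDK W₀ a b f z i j|) +
        1 / 2 * δ * (∑ i, ∑ j, |eDK W₀ a b f z j i|) := by rw [sw]; ring
    rw [s1, ← cn (11 / 2 * (δ * (e * r ^ 2)) * ∑ j, |eD W₀ a f z j|),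
      ← cn (13 / 4 * (δ * (e * r)) * ∑ j, |eK W₀ b f z j|),
      ← cn (n * (10 * (δ * (e * r)) * |f.fn z|)), ← cn (10 * (δ * (e * r)) * |f.fn z|)]
    simp only [Finset.mul_sum, ← Finset.sum_add_distrib]
    exact Finset.sum_congr rfl fun i _ => Finset.sum_congr rfl fun j _ => by ring
  rw [e2]
  have A1 : 0 ≤ ∑ i, ∑ j, |eDD W₀ a f z i j| := by positivity
  have A2 : 0 ≤ ∑ i, ∑ j, |eKK W₀ b f z i j| := by positivity
  have A3 : 0 ≤ ∑ i, ∑ j, |eDK W₀ a b f z i j| := by positivity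
  have A4 : 0 ≤ ∑ j, |eD W₀ a f z j| := by positivity
  have A5 : 0 ≤ ∑ j, |eK W₀ b f z j| := by positivity
  have A6 := abs_nonneg (f.fn z)
  have e3 : (∑ i, ∑ j, (|eDK W₀ a b f z i j| + r * (|eDD W₀ a f z i j| + |eKK W₀ b f z i j|))) =
      (∑ i, ∑ j, |eDK W₀ a b f z i j|) + r * ((∑ i, ∑ j, |eDD W₀ a f z i j|) +
        ∑ i, ∑ j, |eKK W₀ b f z i j|) := by
    simp only [Finset.mul_sum, Finset.sum_add_distrib, mul_add]
  rw [e3]
  set S1 := ∑ i, ∑ j, |eDD W₀ a f z i j|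
  set S2 := ∑ i, ∑ j, |eKK W₀ b f z i j|
  set S3 := ∑ i, ∑ j, |eDK W₀ a b f z i j|
  set S4 := ∑ j, |eD W₀ a f z j|
  set S5 := ∑ j, |eK W₀ b f z j|
  have C1 : 1 ≤ 11 * (n + 1) ^ 2 := by nlinarith
  have C2 : n * (11 / 2) ≤ 11 * (n + 1) ^ 2 := by nlinarith
  have C3 : n * (n * 10) + 1 / 2 ≤ 11 * (n + 1) ^ 2 := by nlinarith
  have de : 0 ≤ δ * (e * r) := mul_nonneg h0 (by linarith)
  have de2 : 0 ≤ δ * (e * r ^ 2) := mul_nonneg h0 (by linarith [h.m1])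
  have dr : 0 ≤ δ * r := mul_nonneg h0 r0.le
  have k1 : δ * r * S1 ≤ 11 * (n + 1) ^ 2 * (δ * r * S1) :=
    le_mul_of_one_le_left (mul_nonneg dr A1) C1
  have k2 : 1 / 4 * (δ * r) * S2 ≤ 11 * (n + 1) ^ 2 * (δ * r * S2) := by
    have := le_mul_of_one_le_left (mul_nonneg dr A2) C1
    nlinarith [mul_nonneg dr A2]
  have k3 : δ * S3 ≤ 11 * (n + 1) ^ 2 * (δ * S3) := le_mul_of_one_le_left (mul_nonneg h0 A3) C1
  have k4 : n * (11 / 2 * (δ * (e * r ^ 2)) * S4) ≤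
      11 * (n + 1) ^ 2 * (δ * (e * r ^ 2) * S4) := by
    calc n * (11 / 2 * (δ * (e * r ^ 2)) * S4) = n * (11 / 2) * (δ * (e * r ^ 2) * S4) := by ring
      _ ≤ _ := mul_le_mul_of_nonneg_right C2 (mul_nonneg de2 A4)
  have k5 : n * (13 / 4 * (δ * (e * r)) * S5) ≤ 11 * (n + 1) ^ 2 * (δ * (e * r) * S5) := by
    calc n * (13 / 4 * (δ * (e * r)) * S5) = n * (13 / 4) * (δ * (e * r) * S5) := by ring
      _ ≤ _ := mul_le_mul_of_nonneg_right (by nlinarith) (mul_nonneg de A5)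
  have k6 : n * (n * (10 * (δ * (e * r)) * |f.fn z|)) + 1 / 2 * (δ * (e * r) * |f.fn z|) ≤
      11 * (n + 1) ^ 2 * (δ * (e * r) * |f.fn z|) := by
    calc _ = (n * (n * 10) + 1 / 2) * (δ * (e * r) * |f.fn z|) := by ring
      _ ≤ _ := mul_le_mul_of_nonneg_right C3 (mul_nonneg de A6)
  calc _ ≤ 11 * (n + 1) ^ 2 * (δ * r * S1) + 11 * (n + 1) ^ 2 * (δ * r * S2) +
        11 * (n + 1) ^ 2 * (δ * S3) + 11 * (n + 1) ^ 2 * (δ * (e * r ^ 2) * S4) +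
        11 * (n + 1) ^ 2 * (δ * (e * r) * S5) + 11 * (n + 1) ^ 2 * (δ * (e * r) * |f.fn z|) := by
        linarith
    _ = _ := by ring

end Vale.Agent.P088.R2.H961.F
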