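import Vale.Agent.P088.R2.H961.F.CellD

/-!
# P088, zone B1: convex extension of the level and of the phase

`k = h` on `|s - s₀| ≤ a`, `k'' = 0` for `|s - s₀| ≥ 2a`; `f = k ∘ lq` with `lq` a quadratic
function, `φ = Φ ∘ (2 f)`.
-/

open Finset Set Filter
open scoped ContDiff Topology

noncomputable section

namespace Vale.Agent.P088.R2.H961.F

open Vale.Agent.P088.LR Vale.Agent.P088.HY

/-! ## One variable -/

theorem cd_int {g : ℝ → ℝ} (hg : ContDiff ℝ ∞ g) (s₀ : ℝ) :
    ContDiff ℝ ∞ (fun s => ∫ t in s₀..s, g t) ∧ deriv (fun s => ∫ t in s₀..s, g t) = g := by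
  have hd : ∀ s, HasDerivAt (fun s => ∫ t in s₀..s, g t) (g s) s := fun s =>
    intervalIntegral.integral_hasDerivAt_right (hg.continuous.intervalIntegrable _ _)
      (hg.continuous.stronglyMeasurableAtFilter _ _) hg.continuous.continuousAt
  have e : deriv (fun s => ∫ t in s₀..s, g t) = g := funext fun s => (hd s).deriv
  refine ⟨contDiff_infty_iff_deriv.2 ⟨fun s => (hd s).differentiableAt, ?_⟩, e⟩
  rw [e]; exact hg

/-- A smooth cut-off. -/
theorem ex_cut (s₀ : ℝ) {a : ℝ} (ha : 0 < a) : ∃ ρ : ℝ → ℝ, ContDiff ℝ ∞ ρ ∧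
    (∀ s, 0 ≤ ρ s ∧ ρ s ≤ 1) ∧ (∀ s, |s - s₀| ≤ a → ρ s = 1) ∧ ∀ s, 2 * a ≤ |s - s₀| → ρ s = 0 := by
  refine ⟨fun s => Real.smoothTransition ((4 - (s - s₀) ^ 2 / a ^ 2) / 3), ?_, fun s =>
    ⟨Real.smoothTransition.nonneg _, Real.smoothTransition.le_one _⟩, fun s hs => ?_, fun s hs => ?_⟩
  · exact Real.smoothTransition.contDiff.comp ((contDiff_const.sub
      (((contDiff_id.sub contDiff_const).pow 2).div_const _)).div_const _)
  · refine Real.smoothTransition.one_of_one_le ?_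
    have h1 : (s - s₀) ^ 2 / a ^ 2 ≤ 1 := by
      rw [div_le_one (by positivity), ← sq_abs (s - s₀)]
      exact pow_le_pow_left₀ (abs_nonneg _) hs 2
    linarith
  · refine Real.smoothTransition.zero_of_nonpos ?_
    have h1 : 4 ≤ (s - s₀) ^ 2 / a ^ 2 := by
      rw [le_div_iff₀ (by positivity), ← sq_abs (s - s₀)]
      nlinarith [abs_nonneg (s - s₀)]
    linarith

theorem mono_of {g g' : ℝ → ℝ} (hg : ∀ s, HasDerivAt g (g' s) s) {a b : ℝ}
    (h : ∀ s, a < s → s < b → 0 ≤ g' s) {x y : ℝ} (hx : a ≤ x) (hxy : x ≤ y) (hy : y ≤ b) :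
    g x ≤ g y := by
  have hm : MonotoneOn g (Icc a b) := by
    refine monotoneOn_of_deriv_nonneg (convex_Icc a b)
      (fun s _ => (hg s).continuousAt.continuousWithinAt)
      (fun s _ => (hg s).differentiableAt.differentiableWithinAt) fun s hs => ?_
    rw [interior_Icc] at hs
    rw [(hg s).deriv]
    exact h s hs.1 hs.2
  exact hm ⟨hx, hxy.trans hy⟩ ⟨hx.trans hxy, hy⟩ hxy

/-- **The extension in one variable.** -/
theorem ext1 {h : ℝ → ℝ} (hs : ContDiff ℝ ∞ h) {s₀ a κ : ℝ} (ha : 0 < a) (hκ : 0 ≤ κ)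
    (h1 : ∀ s, |s - s₀| ≤ 2 * a → |deriv h s - 1| ≤ 1 / 8)
    (h2 : ∀ s, |s - s₀| ≤ 2 * a → -κ ≤ deriv (deriv h) s) (h3 : κ * a ≤ 1 / 16) :
    ∃ k : ℝ → ℝ, ContDiff ℝ ∞ k ∧ (∀ s, |s - s₀| ≤ a → k s = h s) ∧
      (∀ s, 3 / 4 ≤ deriv k s ∧ deriv k s ≤ 5 / 4) ∧ (∀ s, -κ ≤ deriv (deriv k) s) ∧
      ∀ s, 2 * a ≤ |s - s₀| → deriv (deriv k) s = 0 := by
  obtain ⟨ρ, r1, r2, r3, r4⟩ := ex_cut s₀ ha
  have c1 : ContDiff ℝ ∞ (deriv h) := (contDiff_infty_iff_deriv.1 hs).2
  have c2 : ContDiff ℝ ∞ (deriv (deriv h)) := (contDiff_infty_iff_deriv.1 c1).2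
  set g : ℝ → ℝ := fun s => ρ s * deriv (deriv h) s with hg
  have cg : ContDiff ℝ ∞ g := r1.mul c2
  obtain ⟨i1, i2⟩ := cd_int cg s₀
  set g1 : ℝ → ℝ := fun s => deriv h s₀ + ∫ t in s₀..s, g t with hg1
  have cg1 : ContDiff ℝ ∞ g1 := contDiff_const.add i1
  have dg1 : ∀ s, HasDerivAt g1 (g s) s := fun s => by
    have := (i1.differentiable (by simp) s).hasDerivAt
    rw [i2] at this
    exact this.const_add _
  obtain ⟨j1, j2⟩ := cd_int cg1 s₀
  set k : ℝ → ℝ := fun s => h s₀ + ∫ t in s₀..s, g1 t with hk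
  have ck : ContDiff ℝ ∞ k := contDiff_const.add j1
  have dk : ∀ s, HasDerivAt k (g1 s) s := fun s => by
    have := (j1.differentiable (by simp) s).hasDerivAt
    rw [j2] at this
    exact this.const_add _
  have e1 : deriv k = g1 := funext fun s => (dk s).deriv
  have e2 : deriv (deriv k) = g := by rw [e1]; exact funext fun s => (dg1 s).deriv
  have dh : ∀ s, HasDerivAt h (deriv h s) s := fun s => (hs.differentiable (by simp) s).hasDerivAt
  have dh1 : ∀ s, HasDerivAt (deriv h) (deriv (deriv h) s) s := fun s =>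
    (c1.differentiable (by simp) s).hasDerivAt
  have k0 : k s₀ = h s₀ := by simp [hk]
  have g10 : g1 s₀ = deriv h s₀ := by simp [hg1]
  have gp : ∀ s, |s - s₀| ≤ 2 * a → -κ ≤ g s := fun s hs' => by
    have := h2 s hs'
    have := (r2 s).1
    have := (r2 s).2
    change -κ ≤ ρ s * deriv (deriv h) s
    nlinarith
  have gm : ∀ s, |s - s₀| ≤ 2 * a → -κ ≤ deriv (deriv h) s - g s := fun s hs' => by
    have := h2 s hs'
    have := (r2 s).1
    have := (r2 s).2
    change -κ ≤ deriv (deriv h) s - ρ s * deriv (deriv h) s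
    nlinarith
  have ab : ∀ {s}, s₀ - 2 * a ≤ s → s ≤ s₀ + 2 * a → |s - s₀| ≤ 2 * a := fun h5 h6 =>
    abs_le.2 ⟨by linarith, by linarith⟩
  -- the two monotone functions
  have A : ∀ x y, s₀ - 2 * a ≤ x → x ≤ y → y ≤ s₀ + 2 * a → g1 x + κ * x ≤ g1 y + κ * y := by
    intro x y hx hxy hy
    refine mono_of (g := fun s => g1 s + κ * s) (g' := fun s => g s + κ * 1)
      (fun s => (dg1 s).add ((hasDerivAt_id s).const_mul κ)) (a := s₀ - 2 * a) (b := s₀ + 2 * a)
      (fun s p1 p2 => ?_) hx hxy hy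
    have := gp s (ab p1.le p2.le)
    change 0 ≤ g s + κ * 1
    linarith
  have B : ∀ x y, s₀ - 2 * a ≤ x → x ≤ y → y ≤ s₀ + 2 * a →
      deriv h x - g1 x + κ * x ≤ deriv h y - g1 y + κ * y := by
    intro x y hx hxy hy
    refine mono_of (g := fun s => deriv h s - g1 s + κ * s)
      (g' := fun s => deriv (deriv h) s - g s + κ * 1)
      (fun s => ((dh1 s).sub (dg1 s)).add ((hasDerivAt_id s).const_mul κ)) (a := s₀ - 2 * a)
      (b := s₀ + 2 * a) (fun s p1 p2 => ?_) hx hxy hy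
    have := gm s (ab p1.le p2.le)
    change 0 ≤ deriv (deriv h) s - g s + κ * 1
    linarith
  have J : ∀ s, s₀ - 2 * a ≤ s → s ≤ s₀ + 2 * a → 3 / 4 ≤ g1 s ∧ g1 s ≤ 5 / 4 := by
    intro s p1 p2
    have q0 := abs_le.1 (h1 s₀ (by simp; linarith))
    have q1 := abs_le.1 (h1 s (ab p1 p2))
    rcases le_total s₀ s with hle | hle
    · have a1 := A s₀ s (by linarith) hle p2
      have a2 := B s₀ s (by linarith) hle p2
      rw [g10] at a1 a2
      have : κ * (s - s₀) ≤ κ * (2 * a) := mul_le_mul_of_nonneg_left (by linarith) hκ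
      exact ⟨by nlinarith, by nlinarith⟩
    · have a1 := A s s₀ p1 hle (by linarith)
      have a2 := B s s₀ p1 hle (by linarith)
      rw [g10] at a1 a2
      have : κ * (s₀ - s) ≤ κ * (2 * a) := mul_le_mul_of_nonneg_left (by linarith) hκ
      exact ⟨by nlinarith, by nlinarith⟩
  have gz : ∀ s, 2 * a ≤ |s - s₀| → g s = 0 := fun s hs' => by
    change ρ s * deriv (deriv h) s = 0
    rw [r4 s hs', zero_mul]
  have hi : ∀ s, s₀ + 2 * a ≤ s → g1 s = g1 (s₀ + 2 * a) := by
    intro s hs'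
    have z : ∀ t, s₀ + 2 * a ≤ t → g t = 0 := fun t ht =>
      gz t ((by linarith : 2 * a ≤ t - s₀).trans (le_abs_self _))
    refine le_antisymm ?_ ?_
    · have := mono_of (g := fun s => -g1 s) (g' := fun s => -g s) (fun s => (dg1 s).neg)
        (a := s₀ + 2 * a) (b := s) (fun t t1 _ => by change 0 ≤ -g t; rw [z t t1.le, neg_zero])
        le_rfl hs' le_rfl
      change -g1 _ ≤ -g1 _ at this
      linarith
    · exact mono_of (g := g1) (g' := g) dg1 (a := s₀ + 2 * a) (b := s)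
        (fun t t1 _ => by rw [z t t1.le]) le_rfl hs' le_rfl
  have lo : ∀ s, s ≤ s₀ - 2 * a → g1 s = g1 (s₀ - 2 * a) := by
    intro s hs'
    have z : ∀ t, t ≤ s₀ - 2 * a → g t = 0 := fun t ht =>
      gz t ((by linarith : 2 * a ≤ -(t - s₀)).trans (neg_le_abs _))
    refine le_antisymm ?_ ?_
    · exact mono_of (g := g1) (g' := g) dg1 (a := s) (b := s₀ - 2 * a)
        (fun t _ t1 => by rw [z t t1.le]) le_rfl hs' le_rfl
    · have := mono_of (g := fun s => -g1 s) (g' := fun s => -g s) (fun s => (dg1 s).neg)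
        (a := s) (b := s₀ - 2 * a) (fun t _ t1 => by change 0 ≤ -g t; rw [z t t1.le, neg_zero])
        le_rfl hs' le_rfl
      change -g1 _ ≤ -g1 _ at this
      linarith
  -- `k = h` near `s₀`
  have gq : ∀ s, |s - s₀| ≤ a → g s = deriv (deriv h) s := fun s hs' => by
    change ρ s * deriv (deriv h) s = _
    rw [r3 s hs', one_mul]
  have eqc : ∀ {F F' : ℝ → ℝ}, (∀ s, HasDerivAt F (F' s) s) → (∀ s, |s - s₀| ≤ a → F' s = 0) →
      ∀ s, |s - s₀| ≤ a → F s = F s₀ := by
    intro F F' hF hF' s hs'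
    have p := abs_le.1 hs'
    have np : ∀ t, s₀ - a ≤ t → t ≤ s₀ + a → F' t = 0 := fun t t1 t2 =>
      hF' t (abs_le.2 ⟨by linarith, by linarith⟩)
    rcases le_total s₀ s with hle | hle
    · refine le_antisymm ?_ ?_
      · have := mono_of (g := fun s => -F s) (g' := fun s => -F' s) (fun s => (hF s).neg)
          (a := s₀) (b := s) (fun t t1 t2 => by
            change 0 ≤ -F' t; rw [np t (by linarith) (by linarith), neg_zero]) le_rfl hle le_rfl
        change -F _ ≤ -F _ at this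
        linarith
      · exact mono_of (g := F) (g' := F') hF (a := s₀) (b := s)
          (fun t t1 t2 => by rw [np t (by linarith) (by linarith)]) le_rfl hle le_rfl
    · refine le_antisymm ?_ ?_
      · exact mono_of (g := F) (g' := F') hF (a := s) (b := s₀)
          (fun t t1 t2 => by rw [np t (by linarith) (by linarith)]) le_rfl hle le_rfl
      · have := mono_of (g := fun s => -F s) (g' := fun s => -F' s) (fun s => (hF s).neg)
          (a := s) (b := s₀) (fun t t1 t2 => by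
            change 0 ≤ -F' t; rw [np t (by linarith) (by linarith), neg_zero]) le_rfl hle le_rfl
        change -F _ ≤ -F _ at this
        linarith
  have g1h : ∀ s, |s - s₀| ≤ a → g1 s = deriv h s := fun s hs' => by
    have := eqc (F := fun s => g1 s - deriv h s) (F' := fun s => g s - deriv (deriv h) s)
      (fun s => (dg1 s).sub (dh1 s)) (fun t ht => by rw [gq t ht, sub_self]) s hs'
    change g1 s - deriv h s = g1 s₀ - deriv h s₀ at this
    rw [g10] at this
    linarith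
  have kh : ∀ s, |s - s₀| ≤ a → k s = h s := fun s hs' => by
    have := eqc (F := fun s => k s - h s) (F' := fun s => g1 s - deriv h s)
      (fun s => (dk s).sub (dh s)) (fun t ht => by rw [g1h t ht, sub_self]) s hs'
    change k s - h s = k s₀ - h s₀ at this
    rw [k0] at this
    linarith
  refine ⟨k, ck, kh, fun s => ?_, fun s => ?_, fun s hs' => ?_⟩
  · rw [e1]
    rcases le_total s (s₀ + 2 * a) with p | p
    · rcases le_total (s₀ - 2 * a) s with q | q
      · exact J s q p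
      · rw [lo s q]; exact J _ le_rfl (by linarith)
    · rw [hi s p]; exact J _ (by linarith) le_rfl
  · rw [e2]
    by_cases p : |s - s₀| ≤ 2 * a
    · exact gp s p
    · rw [gz s (not_le.1 p).le]; linarith
  · rw [e2]; exact gz s hs'

end Vale.Agent.P088.R2.H961.F
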