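import Vale.Agent.P088.R2.H961.F.Cvx

/-!
# P088, zone B1: convex level and phase from a quadratic function

`f = k ∘ lq`, `D² lq (v, v) = c |v|²`, `φ = Φ ∘ (2 f)`.
-/

open Finset Set Filter
open scoped ContDiff Topology

noncomputable section

namespace Vale.Agent.P088.R2.H961.F

open Vale.Agent.P088.LR Vale.Agent.P088.HY

variable {n : ℕ}

/-- First derivative of a composition. -/
theorem fd_comp {k : ℝ → ℝ} (hk : ContDiff ℝ ∞ k) {f : V n → ℝ} (hf : ContDiff ℝ ∞ f)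
    (p v : V n) : fderiv ℝ (fun p => k (f p)) p v = deriv k (f p) * fderiv ℝ f p v := by
  have h1 := ((hk.differentiable (by simp) (f p)).hasDerivAt).comp_hasFDerivAt p
    (hf.differentiable (by simp) p).hasFDerivAt
  rw [show (fun p => k (f p)) = k ∘ f from rfl, h1.fderiv]
  rfl

/-- Second derivative of a composition. -/
theorem fd2_comp {k : ℝ → ℝ} (hk : ContDiff ℝ ∞ k) {f : V n → ℝ} (hf : ContDiff ℝ ∞ f)
    (p v w : V n) : fderiv ℝ (fun p => fderiv ℝ (fun p => k (f p)) p v) p w =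
      deriv (deriv k) (f p) * (fderiv ℝ f p w * fderiv ℝ f p v) +
        deriv k (f p) * fderiv ℝ (fun p => fderiv ℝ f p v) p w := by
  have hk1 : ContDiff ℝ ∞ (deriv k) := (contDiff_infty_iff_deriv.1 hk).2
  have e : (fun p => fderiv ℝ (fun p => k (f p)) p v) =
      fun p => deriv k (f p) * fderiv ℝ f p v := funext fun p => fd_comp hk hf p v
  have d1 : DifferentiableAt ℝ (fun p => deriv k (f p)) p :=
    (hk1.comp hf).differentiable (by simp) p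
  have d2 : DifferentiableAt ℝ (fun p => fderiv ℝ f p v) p :=
    (cd_fd hf v).differentiable (by simp) p
  rw [e, fderiv_fun_mul d1 d2]
  simp only [_root_.add_apply, _root_.smul_apply, smul_eq_mul]
  rw [fd_comp hk1 hf]
  ring

/-- The properties of the quadratic function. -/
structure Qd (lq : V n → ℝ) (c : ℝ) (I : Set ℝ) : Prop where
  sm : ContDiff ℝ ∞ lq
  c0 : 0 ≤ c
  q2 : ∀ p v, fderiv ℝ (fun p => fderiv ℝ lq p v) p v = c * ∑ i, v i ^ 2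
  q1 : ∀ p v, lq p ∈ I → fderiv ℝ lq p v ^ 2 ≤ 2 * ∑ i, v i ^ 2

/-- The level is convex on the whole space. -/
theorem cvx_level {lq : V n → ℝ} {c s₀ a κ : ℝ} (Q : Qd lq c {s | |s - s₀| ≤ 2 * a})
    {k : ℝ → ℝ} (ck : ContDiff ℝ ∞ k) (k1 : ∀ s, 3 / 4 ≤ deriv k s)
    (k2 : ∀ s, -κ ≤ deriv (deriv k) s) (k3 : ∀ s, 2 * a ≤ |s - s₀| → deriv (deriv k) s = 0)
    (hκ : κ ≤ c / 4) (p v : V n) :
    c / 4 * ∑ i, v i ^ 2 ≤ fderiv ℝ (fun p => fderiv ℝ (fun p => k (lq p)) p v) p v := by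
  rw [fd2_comp ck Q.sm, Q.q2]
  have hv : 0 ≤ ∑ i, v i ^ 2 := Finset.sum_nonneg fun i _ => sq_nonneg _
  have h1 : 3 / 4 * (c * ∑ i, v i ^ 2) ≤ deriv k (lq p) * (c * ∑ i, v i ^ 2) :=
    mul_le_mul_of_nonneg_right (k1 _) (mul_nonneg Q.c0 hv)
  have h2 : -(c / 2 * ∑ i, v i ^ 2) ≤
      deriv (deriv k) (lq p) * (fderiv ℝ lq p v * fderiv ℝ lq p v) := by
    by_cases hp : |lq p - s₀| ≤ 2 * a
    · have h3 := Q.q1 p v hp
      have h4 := k2 (lq p)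
      have h5 : 0 ≤ fderiv ℝ lq p v ^ 2 := sq_nonneg _
      have h6 : -κ * fderiv ℝ lq p v ^ 2 ≤ deriv (deriv k) (lq p) * fderiv ℝ lq p v ^ 2 :=
        mul_le_mul_of_nonneg_right h4 h5
      have hc := Q.c0
      have h7 : κ * fderiv ℝ lq p v ^ 2 ≤ c / 4 * fderiv ℝ lq p v ^ 2 :=
        mul_le_mul_of_nonneg_right hκ h5
      have h8 : c / 4 * fderiv ℝ lq p v ^ 2 ≤ c / 4 * (2 * ∑ i, v i ^ 2) :=
        mul_le_mul_of_nonneg_left h3 (by linarith)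
      nlinarith
    · rw [k3 _ (not_le.1 hp).le, zero_mul]
      have := mul_nonneg Q.c0 hv
      linarith
  linarith

/-- The phase is convex on the whole space. -/
theorem cvx_phase {f : V n → ℝ} (hf : ContDiff ℝ ∞ f)
    (h2 : ∀ p v, 0 ≤ fderiv ℝ (fun p => fderiv ℝ f p v) p v) {Φ : ℝ → ℝ} (hΦ : ContDiff ℝ ∞ Φ)
    (h0 : ∀ u, 0 ≤ deriv Φ u) (h1 : ∀ u, 0 ≤ deriv (deriv Φ) u) (p v : V n) :
    0 ≤ fderiv ℝ (fun p => fderiv ℝ (fun p => Φ (2 * f p)) p v) p v := by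
  have hf2 : ContDiff ℝ ∞ fun p => 2 * f p := contDiff_const.mul hf
  have e : ∀ q w, fderiv ℝ (fun p => 2 * f p) q w = 2 * fderiv ℝ f q w := fun q w => by
    rw [fderiv_const_mul (hf.differentiable (by simp) q)]; rfl
  have e2 : fderiv ℝ (fun p => fderiv ℝ (fun p => 2 * f p) p v) p v =
      2 * fderiv ℝ (fun p => fderiv ℝ f p v) p v := by
    rw [funext fun q => e q v, fderiv_const_mul ((cd_fd hf v).differentiable (by simp) p)]; rfl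
  rw [fd2_comp hΦ hf2, e2]
  have a1 := h0 (2 * f p)
  have a2 := h1 (2 * f p)
  have a3 := h2 p v
  have a4 := mul_self_nonneg (fderiv ℝ (fun p => 2 * f p) p v)
  have a5 := mul_nonneg a2 a4
  have a6 := mul_nonneg a1 (mul_nonneg zero_le_two a3)
  linarith

/-- The cell data: `l = k ∘ lq`, `φ = Φ ∘ (2 l)`, `E₀ = 1`. -/
def mkCD (M N : Matrix (Fin n) (Fin n) ℝ) (nm : N * M = 1) {k Φ : ℝ → ℝ} {lq : V n → ℝ}
    (ck : ContDiff ℝ ∞ k) (cΦ : ContDiff ℝ ∞ Φ) (cq : ContDiff ℝ ∞ lq) : CD n where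
  M := M
  N := N
  nm := nm
  E₀ := 1
  hE := one_pos
  l p := k (lq p)
  φ p := Φ (2 * k (lq p))
  cl := ck.comp cq
  cφ := cΦ.comp (contDiff_const.mul (ck.comp cq))

section vals

variable {M N : Matrix (Fin n) (Fin n) ℝ} {nm : N * M = 1} {k Φ : ℝ → ℝ} {lq : V n → ℝ}
  (ck : ContDiff ℝ ∞ k) (cΦ : ContDiff ℝ ∞ Φ) (cq : ContDiff ℝ ∞ lq)

theorem mk_pl {c s₀ a κ : ℝ} (Q : Qd lq c {s | |s - s₀| ≤ 2 * a}) (k1 : ∀ s, 3 / 4 ≤ deriv k s)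
    (k2 : ∀ s, -κ ≤ deriv (deriv k) s) (k3 : ∀ s, 2 * a ≤ |s - s₀| → deriv (deriv k) s = 0)
    (hκ : κ ≤ c / 4) (z : VV n) (x : Fin n → ℝ) :
    0 ≤ ∑ i, ∑ j, ((mkCD M N nm ck cΦ cq).T.l2 i j : VV n → ℝ) z * x i * x j :=
  pl_of _ z (fun p v => le_trans (mul_nonneg (by linarith [Q.c0])
    (Finset.sum_nonneg fun i _ => sq_nonneg _)) (cvx_level Q ck k1 k2 k3 hκ p v)) x

theorem mk_pφ {c s₀ a κ : ℝ} (Q : Qd lq c {s | |s - s₀| ≤ 2 * a}) (k1 : ∀ s, 3 / 4 ≤ deriv k s)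
    (k2 : ∀ s, -κ ≤ deriv (deriv k) s) (k3 : ∀ s, 2 * a ≤ |s - s₀| → deriv (deriv k) s = 0)
    (hκ : κ ≤ c / 4) (h0 : ∀ u, 0 ≤ deriv Φ u) (h1 : ∀ u, 0 ≤ deriv (deriv Φ) u)
    (z : VV n) (x : Fin n → ℝ) :
    0 ≤ ∑ i, ∑ j, ((mkCD M N nm ck cΦ cq).T.φ2 i j : VV n → ℝ) z * x i * x j :=
  pφ_of _ z (fun p v => cvx_phase (ck.comp cq) (fun p v => le_trans (mul_nonneg (by linarith [Q.c0])
    (Finset.sum_nonneg fun i _ => sq_nonneg _)) (cvx_level Q ck k1 k2 k3 hκ p v)) cΦ h0 h1 p v) x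

/-- `l_i = k' D lq (M_i)`. -/
theorem mk_l1 (z : VV n) (i : Fin n) : ((mkCD M N nm ck cΦ cq).T.l1 i : VV n → ℝ) z =
    deriv k (lq ((1 / 2 : ℝ) • (z.1 + z.2))) *
      fderiv ℝ lq ((1 / 2 : ℝ) • (z.1 + z.2)) (M.col i) := by
  rw [T_l1]
  exact fd_comp ck cq _ _

/-- `φ_i = 2 Φ' l_i`. -/
theorem mk_φ1 (z : VV n) (i : Fin n) : ((mkCD M N nm ck cΦ cq).T.φ1 i : VV n → ℝ) z =
    2 * deriv Φ (2 * k (lq ((1 / 2 : ℝ) • (z.1 + z.2)))) *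
      ((mkCD M N nm ck cΦ cq).T.l1 i : VV n → ℝ) z := by
  have h := fd_comp cΦ (f := fun p => 2 * k (lq p)) (contDiff_const.mul (ck.comp cq))
    ((1 / 2 : ℝ) • (z.1 + z.2)) (M.col i)
  rw [T_φ1, T_l1]
  change fderiv ℝ (fun p => Φ (2 * k (lq p))) _ (M.col i) = _ * fderiv ℝ (fun p => k (lq p)) _
    (M.col i)
  have hf : ContDiff ℝ ∞ fun p => k (lq p) := ck.comp cq
  rw [h, fderiv_const_mul (hf.differentiable (by simp) _)]
  change deriv Φ _ * (2 * fderiv ℝ (fun p => k (lq p)) _ (M.col i)) = _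
  ring

/-- `l_ij = k'' D lq (M_i) D lq (M_j) + k' D² lq (M_i, M_j)`. -/
theorem mk_l2 (z : VV n) (i j : Fin n) : ((mkCD M N nm ck cΦ cq).T.l2 i j : VV n → ℝ) z =
    deriv (deriv k) (lq ((1 / 2 : ℝ) • (z.1 + z.2))) *
      (fderiv ℝ lq ((1 / 2 : ℝ) • (z.1 + z.2)) (M.col i) *
        fderiv ℝ lq ((1 / 2 : ℝ) • (z.1 + z.2)) (M.col j)) +
    deriv k (lq ((1 / 2 : ℝ) • (z.1 + z.2))) *
      fderiv ℝ (fun p => fderiv ℝ lq p (M.col j)) ((1 / 2 : ℝ) • (z.1 + z.2)) (M.col i) := by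
  rw [T_l2]
  exact fd2_comp ck cq _ _ _

/-- `φ_ij = 4 Φ'' l_i l_j + 2 Φ' l_ij`. -/
theorem mk_φ2 (z : VV n) (i j : Fin n) : ((mkCD M N nm ck cΦ cq).T.φ2 i j : VV n → ℝ) z =
    4 * deriv (deriv Φ) (2 * k (lq ((1 / 2 : ℝ) • (z.1 + z.2)))) *
      (((mkCD M N nm ck cΦ cq).T.l1 i : VV n → ℝ) z *
        ((mkCD M N nm ck cΦ cq).T.l1 j : VV n → ℝ) z) +
    2 * deriv Φ (2 * k (lq ((1 / 2 : ℝ) • (z.1 + z.2)))) *
      ((mkCD M N nm ck cΦ cq).T.l2 i j : VV n → ℝ) z := by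
  have hf : ContDiff ℝ ∞ fun p => k (lq p) := ck.comp cq
  have e : ∀ q w, fderiv ℝ (fun p => 2 * k (lq p)) q w = 2 * fderiv ℝ (fun p => k (lq p)) q w :=
    fun q w => by rw [fderiv_const_mul (hf.differentiable (by simp) q)]; rfl
  have e2 : ∀ (p v w : V n), fderiv ℝ (fun p => fderiv ℝ (fun p => 2 * k (lq p)) p v) p w =
      2 * fderiv ℝ (fun p => fderiv ℝ (fun p => k (lq p)) p v) p w := fun p v w => by
    rw [funext fun q => e q v, fderiv_const_mul ((cd_fd hf v).differentiable (by simp) p)]; rfl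
  rw [T_φ2, T_l1, T_l1, T_l2]
  change fderiv ℝ (fun p => fderiv ℝ (fun p => Φ (2 * k (lq p))) p (M.col j)) _ (M.col i) =
    _ * (fderiv ℝ (fun p => k (lq p)) _ (M.col i) * fderiv ℝ (fun p => k (lq p)) _ (M.col j)) +
      _ * fderiv ℝ (fun p => fderiv ℝ (fun p => k (lq p)) p (M.col j)) _ (M.col i)
  rw [fd2_comp cΦ (contDiff_const.mul hf), e2, e, e]
  ring

end vals

end Vale.Agent.P088.R2.H961.F
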