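import Vale.Agent.P088.R2.H464.EP.Inst2

/-!
# P088, zone B1: the true operators in the derivations of the model

`dd W v = e^{-W} ∂_v e^W`, `Pv W X s v = ∑ dd W X_i s_ij dd W X_j + v`, expanded in `dd W₀`.
-/

open Finset

noncomputable section

namespace Vale.Agent.P088.R2.H961.F

open Vale.Agent.P088.R2.H464.EP

variable {ι E : Type} [Fintype ι] [NormedAddCommGroup E] [NormedSpace ℝ E]

/-- The dressed derivation `e^{-W} ∂_v e^W`. -/
def dd (W : Sm E) (v : E) : Op E := dv v + ml (ds v W)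

theorem dd_ml (W : Sm E) (v : E) (g : Sm E) : dd W v * ml g = ml g * dd W v + ml (ds v g) := by
  unfold dd
  rw [add_mul, dv_ml, mul_add, mlc (ds v W) g]; abel

theorem dd_comm (W : Sm E) (v w : E) : dd W v * dd W w = dd W w * dd W v := by
  unfold dd
  rw [add_mul, mul_add, mul_add, add_mul, mul_add, mul_add, dv_comm v w, dv_ml v, dv_ml w,
    mlc (ds v W) (ds w W), ds_comm v w]
  abel

theorem dd_add (W : Sm E) (v w : E) : dd W (v + w) = dd W v + dd W w := by
  unfold dd
  rw [dv_add, ds_add, LinearMap.add_apply, map_add]; abel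

theorem dd_smul (W : Sm E) (c : ℝ) (v : E) : dd W (c • v) = c • dd W v := by
  unfold dd
  rw [dv_smul, ds_smul, LinearMap.smul_apply, map_smul, smul_add]

theorem dd_split (W W₀ : Sm E) (v : E) : dd W v = dd W₀ v + ml (ds v (W - W₀)) := by
  unfold dd
  rw [map_sub, map_sub]; abel

/-- The conjugated operator `∑ dd W X_i s_ij dd W X_j + v`. -/
def Pv (W : Sm E) (X : ι → E) (s : ι → ι → Sm E) (v : Sm E) : Op E :=
  ∑ i, ∑ j, dd W (X i) * ml (s i j) * dd W (X j) + ml v

/-- The first order coefficients. -/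
def al (X : ι → E) (s : ι → ι → Sm E) (om : Sm E) (i j : ι) : Sm E :=
  ds (X i) (s i j) + 2 * (s i j * ds (X i) om)

/-- The zero order coefficients. -/
def be (X : ι → E) (s : ι → ι → Sm E) (om : Sm E) (i j : ι) : Sm E :=
  s i j * (ds (X i) om * ds (X j) om) + (ds (X i) (s i j) * ds (X j) om +
    s i j * ds (X i) (ds (X j) om))

theorem Pv_exp (W W₀ : Sm E) (X : ι → E) {s : ι → ι → Sm E} (hs : ∀ i j, s i j = s j i)
    (v : Sm E) : Pv W X s v =
      ∑ i, ∑ j, ml (s i j) * (dd W₀ (X i) * dd W₀ (X j)) +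
      ∑ i, ∑ j, ml (al X s (W - W₀) i j) * dd W₀ (X j) +
      (∑ i, ∑ j, ml (be X s (W - W₀) i j) + ml v) := by
  set om := W - W₀ with hom
  have e : ∀ i j, dd W (X i) * ml (s i j) * dd W (X j) =
      ml (s i j) * (dd W₀ (X i) * dd W₀ (X j)) + (ml (ds (X i) (s i j)) +
        ml (s i j * ds (X i) om)) * dd W₀ (X j) + ml (s i j * ds (X j) om) * dd W₀ (X i) +
        ml (be X s om i j) := by
    intro i j
    have h1 : dd W (X i) * ml (s i j) = ml (s i j) * dd W₀ (X i) +
        (ml (ds (X i) (s i j)) + ml (s i j * ds (X i) om)) := by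
      rw [dd_split W W₀ (X i), add_mul, dd_ml, mlc (ds (X i) (W - W₀)) (s i j),
        ← map_mul ml (s i j)]
      abel
    have h2 : dd W₀ (X i) * ml (ds (X j) om) = ml (ds (X j) om) * dd W₀ (X i) +
        ml (ds (X i) (ds (X j) om)) := dd_ml _ _ _
    rw [h1, dd_split W W₀ (X j), ← hom, mul_add (_ + _), add_mul _ _ (ml (ds (X j) om)),
      mul_assoc (ml (s i j)), h2, mul_add (ml (s i j)), ← mul_assoc (ml (s i j)) (ml _),
      add_mul (ml _) (ml _) (ml (ds (X j) om)), add_mul (ml (s i j) * dd W₀ (X i)), mul_assoc]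
    simp only [← map_mul ml, ← map_add ml]
    have h3 : ml (be X s om i j) = ml (s i j * ds (X i) (ds (X j) om)) +
        (ml (ds (X i) (s i j) * ds (X j) om) + ml (s i j * ds (X i) om * ds (X j) om)) := by
      rw [← map_add ml, ← map_add ml]
      congr 1
      unfold be
      ring
    rw [h3]
    simp only [map_add ml]
    abel
  have e2 : ∑ i, ∑ j, ml (s i j * ds (X j) om) * dd W₀ (X i) =
      ∑ i, ∑ j, ml (s i j * ds (X i) om) * dd W₀ (X j) := by
    rw [Finset.sum_comm]
    exact Finset.sum_congr rfl fun i _ => Finset.sum_congr rfl fun j _ => by rw [hs j i]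
  have e3 : ∀ i j, ml (al X s om i j) * dd W₀ (X j) = (ml (ds (X i) (s i j)) +
      ml (s i j * ds (X i) om)) * dd W₀ (X j) + ml (s i j * ds (X i) om) * dd W₀ (X j) := by
    intro i j
    rw [← add_mul, ← map_add ml, ← map_add ml]
    congr 2
    unfold al
    ring
  unfold Pv
  simp only [e, e3, Finset.sum_add_distrib]
  rw [e2]
  abel

end Vale.Agent.P088.R2.H961.F
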