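import Vale.Agent.P088.R2.H961.F.Bd

/-!
# P088, zone B1: rows FR1S, FR1R (true operators against the model)
-/

open Finset

noncomputable section

namespace Vale.Agent.P088.R2.H961.F

open Vale.Agent.P088.R2.H464.EP

variable {ι E : Type} [Fintype ι] [DecidableEq ι] [NormedAddCommGroup E] [NormedSpace ℝ E]

/-- The pointwise sizes: `δ` the relative error, `e` the stiffness, `r = √(μ / e)`. -/
structure Pb (a b : ι → E) (s d : ι → ι → Sm E) (om v₁ v₂ : Sm E) (δ e r : ℝ) (z : E) : Prop where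
  δ0 : 0 ≤ δ
  r0 : 0 < r
  r1 : r ≤ 1
  m1 : 1 ≤ e * r ^ 2
  dm : δ * (e * r ^ 2) ≤ 1
  s0 : ∀ i j, |vl z (s i j)| ≤ δ
  d0 : ∀ i j, |vl z (d i j)| ≤ δ * r
  sa : ∀ k i j, |vl z (ds (a k) (s i j))| ≤ δ
  sb : ∀ k i j, |vl z (ds (b k) (s i j))| ≤ δ
  da : ∀ k i j, |vl z (ds (a k) (d i j))| ≤ δ
  db : ∀ k i j, |vl z (ds (b k) (d i j))| ≤ δ
  oa : ∀ i, |vl z (ds (a i) om)| ≤ δ * (e * r)
  ob : ∀ i, |vl z (ds (b i) om)| ≤ δ * (e * r ^ 2)
  oaa : ∀ i j, |vl z (ds (a i) (ds (a j) om))| ≤ δ * e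
  oab : ∀ i j, |vl z (ds (a i) (ds (b j) om))| ≤ δ * (e * r)
  obb : ∀ i j, |vl z (ds (b i) (ds (b j) om))| ≤ δ * (e * r ^ 2)
  vp : |vl z v₁ + vl z v₂| ≤ δ * e
  vm : |vl z v₁ - vl z v₂| ≤ δ * (e * r)

section

variable {a b : ι → E} {s d : ι → ι → Sm E} {om v₁ v₂ : Sm E} {δ e r : ℝ} {z : E}

theorem Pb.basic (h : Pb a b s d om v₁ v₂ δ e r z) : 1 ≤ e ∧ 1 ≤ e * r ∧ δ ≤ 1 ∧
    e * r ^ 2 ≤ e * r ∧ e * r ≤ e := by
  have h0 := h.r0
  have h1 := h.r1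
  have h2 := h.m1
  have hr2 : r ^ 2 ≤ r := by nlinarith
  have he : 0 < e := by
    by_contra hc
    have : e * r ^ 2 ≤ 0 := mul_nonpos_of_nonpos_of_nonneg (not_lt.1 hc) (sq_nonneg r)
    linarith
  have a1 : e * r ^ 2 ≤ e * r := mul_le_mul_of_nonneg_left hr2 he.le
  have a2 : e * r ≤ e := by nlinarith
  refine ⟨by linarith, by linarith, ?_, a1, a2⟩
  have := h.dm
  have := h.δ0
  nlinarith

theorem id_abs (i j : ι) : |(if i = j then (1 : ℝ) else 0)| ≤ 1 := by split <;> simp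

theorem Pb.is (h : Pb a b s d om v₁ v₂ δ e r z) (i j : ι) :
    |(if i = j then (1 : ℝ) else 0) + vl z (s i j)| ≤ 2 := by
  have := h.basic.2.2.1
  exact (abs_add_le _ _).trans (by linarith [id_abs i j, h.s0 i j])

theorem mul_bd {x y X Y : ℝ} (hx : |x| ≤ X) (hy : |y| ≤ Y) : |x * y| ≤ X * Y := by
  rw [abs_mul]; exact mul_le_mul hx hy (abs_nonneg _) ((abs_nonneg _).trans hx)

theorem add_bd {x y X Y : ℝ} (hx : |x| ≤ X) (hy : |y| ≤ Y) : |x + y| ≤ X + Y :=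
  (abs_add_le _ _).trans (add_le_add hx hy)

theorem cmul_bd {x X : ℝ} (c : ℝ) (hc : 0 ≤ c) (hx : |x| ≤ X) : |c * x| ≤ c * X := by
  rw [abs_mul, abs_of_nonneg hc]; exact mul_le_mul_of_nonneg_left hx hc

theorem Pb.al_add (h : Pb a b s d om v₁ v₂ δ e r z) (i j : ι) :
    |vl z (al (Xv a b) (sX s d) om i j) + vl z (al (Yv a b) (sY s d) om i j)| ≤
      11 * (δ * (e * r ^ 2)) := by
  rw [F.al_add]
  obtain ⟨e1, er1, d1, hm, hr⟩ := h.basic
  have t := add_bd (add_bd (cmul_bd 2 (by norm_num) (h.da i i j)) (h.sb i i j))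
    (cmul_bd 2 (by norm_num) (add_bd (mul_bd (h.is i j) (h.ob i))
      (cmul_bd 2 (by norm_num) (mul_bd (h.d0 i j) (h.oa i)))))
  refine t.trans ?_
  have h0 := h.δ0
  have h1 : δ ≤ δ * (e * r ^ 2) := by nlinarith [h.m1]
  have h2 : δ * r * (δ * (e * r)) ≤ δ * (e * r ^ 2) := by
    calc δ * r * (δ * (e * r)) = δ * (δ * (e * r ^ 2)) := by ring
      _ ≤ 1 * (δ * (e * r ^ 2)) := mul_le_mul_of_nonneg_right d1 (h0.trans h1)
      _ = _ := one_mul _
  linarith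

theorem Pb.al_sub (h : Pb a b s d om v₁ v₂ δ e r z) (i j : ι) :
    |vl z (al (Xv a b) (sX s d) om i j) - vl z (al (Yv a b) (sY s d) om i j)| ≤
      13 * (δ * (e * r)) := by
  rw [F.al_sub]
  obtain ⟨e1, er1, d1, hm, hr⟩ := h.basic
  have t := add_bd (add_bd (cmul_bd 2 (by norm_num) (h.sa i i j)) (h.db i i j))
    (cmul_bd 2 (by norm_num) (add_bd (cmul_bd 2 (by norm_num) (mul_bd (h.is i j) (h.oa i)))
      (mul_bd (h.d0 i j) (h.ob i))))
  refine t.trans ?_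
  have h0 := h.δ0
  have r0 := h.r0
  have h1 : δ ≤ δ * (e * r) := by nlinarith
  have h2 : δ * r * (δ * (e * r ^ 2)) ≤ δ * (e * r) := by
    calc δ * r * (δ * (e * r ^ 2)) ≤ δ * r * 1 :=
          mul_le_mul_of_nonneg_left h.dm (mul_nonneg h0 r0.le)
      _ ≤ δ := by nlinarith [h.r1]
      _ ≤ _ := h1
  linarith

theorem Pb.be_add (h : Pb a b s d om v₁ v₂ δ e r z) (i j : ι) :
    |vl z (be (Xv a b) (sX s d) om i j) + vl z (be (Yv a b) (sY s d) om i j)| ≤ 20 * (δ * e) := by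
  rw [F.be_add]
  obtain ⟨e1, er1, d1, hm, hr⟩ := h.basic
  have h0 := h.δ0
  have r0 := h.r0
  have r1 := h.r1
  have oa := h.oa
  have ob := h.ob
  have t1 := cmul_bd 2 (by norm_num) (mul_bd (h.is i j) (add_bd (mul_bd (oa i) (oa j))
    (cmul_bd (1 / 4) (by norm_num) (mul_bd (ob i) (ob j)))))
  have t2 := mul_bd (h.d0 i j) (add_bd (mul_bd (oa i) (ob j)) (mul_bd (ob i) (oa j)))
  have t3 := mul_bd (add_bd (cmul_bd 2 (by norm_num) (h.sa i i j)) (h.db i i j)) (oa j)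
  have t4 := mul_bd (add_bd (h.da i i j) (cmul_bd (1 / 2) (by norm_num) (h.sb i i j))) (ob j)
  have t5 := cmul_bd 2 (by norm_num) (mul_bd (h.is i j) (add_bd (h.oaa i j)
    (cmul_bd (1 / 4) (by norm_num) (h.obb i j))))
  have t6 := mul_bd (h.d0 i j) (add_bd (h.oab i j) (h.oab j i))
  refine (add_bd (add_bd (add_bd (add_bd (add_bd t1 t2) t3) t4) t5) t6).trans ?_
  have dm := h.dm
  have m0 : 0 ≤ δ * (e * r ^ 2) := mul_nonneg h0 (by linarith [h.m1])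
  have de : δ ≤ δ * e := by nlinarith
  have de0 : 0 ≤ δ * e := h0.trans de
  have q1 : δ * (e * r) * (δ * (e * r)) ≤ δ * e := by
    calc δ * (e * r) * (δ * (e * r)) = δ * e * (δ * (e * r ^ 2)) := by ring
      _ ≤ δ * e * 1 := mul_le_mul_of_nonneg_left dm de0
      _ = _ := mul_one _
  have q2 : δ * (e * r ^ 2) * (δ * (e * r ^ 2)) ≤ δ * e := by
    calc δ * (e * r ^ 2) * (δ * (e * r ^ 2)) ≤ δ * (e * r ^ 2) * 1 :=
          mul_le_mul_of_nonneg_left dm m0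
      _ ≤ δ * e := by nlinarith
  have q3 : δ * r * (δ * (e * r) * (δ * (e * r ^ 2)) + δ * (e * r ^ 2) * (δ * (e * r))) ≤
      2 * (δ * e) := by
    calc δ * r * (δ * (e * r) * (δ * (e * r ^ 2)) + δ * (e * r ^ 2) * (δ * (e * r))) =
          2 * (δ * ((δ * (e * r ^ 2)) * (δ * (e * r ^ 2)))) := by ring
      _ ≤ 2 * (δ * (1 * 1)) := by
          have := mul_le_mul dm dm m0 zero_le_one
          nlinarith
      _ ≤ _ := by linarith
  have q4 : δ * (δ * (e * r)) ≤ δ * e := by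
    have : δ * (e * r) ≤ 1 * e := mul_le_mul d1 hr (by nlinarith) zero_le_one
    nlinarith
  have q5 : δ * (δ * (e * r ^ 2)) ≤ δ * e := by nlinarith
  have q6 : δ * (e * r ^ 2) ≤ δ * e := by nlinarith
  have q7 : δ * r * (δ * (e * r)) ≤ δ * e := by
    calc δ * r * (δ * (e * r)) = δ * (δ * (e * r ^ 2)) := by ring
      _ ≤ _ := q5
  linarith

theorem Pb.be_sub (h : Pb a b s d om v₁ v₂ δ e r z) (i j : ι) :
    |vl z (be (Xv a b) (sX s d) om i j) - vl z (be (Yv a b) (sY s d) om i j)| ≤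
      20 * (δ * (e * r)) := by
  rw [F.be_sub]
  obtain ⟨e1, er1, d1, hm, hr⟩ := h.basic
  have h0 := h.δ0
  have r0 := h.r0
  have r1 := h.r1
  have oa := h.oa
  have ob := h.ob
  have t1 := mul_bd (h.is i j) (add_bd (mul_bd (oa i) (ob j)) (mul_bd (ob i) (oa j)))
  have t2 := cmul_bd 2 (by norm_num) (mul_bd (h.d0 i j) (add_bd (mul_bd (oa i) (oa j))
    (cmul_bd (1 / 4) (by norm_num) (mul_bd (ob i) (ob j)))))
  have t3 := mul_bd (add_bd (h.sa i i j) (cmul_bd (1 / 2) (by norm_num) (h.db i i j))) (ob j)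
  have t4 := mul_bd (add_bd (cmul_bd 2 (by norm_num) (h.da i i j)) (h.sb i i j)) (oa j)
  have t5 := mul_bd (h.is i j) (add_bd (h.oab i j) (h.oab j i))
  have t6 := cmul_bd 2 (by norm_num) (mul_bd (h.d0 i j) (add_bd (h.oaa i j)
    (cmul_bd (1 / 4) (by norm_num) (h.obb i j))))
  refine (add_bd (add_bd (add_bd (add_bd (add_bd t1 t2) t3) t4) t5) t6).trans ?_
  have dm := h.dm
  have m0 : 0 ≤ δ * (e * r ^ 2) := mul_nonneg h0 (by linarith [h.m1])
  have de : δ ≤ δ * (e * r) := by nlinarith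
  have de0 : 0 ≤ δ * (e * r) := h0.trans de
  have q1 : δ * (e * r) * (δ * (e * r ^ 2)) ≤ δ * (e * r) := by
    calc _ ≤ δ * (e * r) * 1 := mul_le_mul_of_nonneg_left dm de0
      _ = _ := mul_one _
  have q1' : δ * (e * r ^ 2) * (δ * (e * r)) ≤ δ * (e * r) := by rw [mul_comm]; exact q1
  have q2 : δ * r * (δ * (e * r) * (δ * (e * r))) ≤ δ * (e * r) := by
    calc δ * r * (δ * (e * r) * (δ * (e * r))) = δ * (e * r) * (δ * (δ * (e * r ^ 2))) := by ring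
      _ ≤ δ * (e * r) * 1 := mul_le_mul_of_nonneg_left (by nlinarith) de0
      _ = _ := mul_one _
  have q3 : δ * r * (δ * (e * r ^ 2) * (δ * (e * r ^ 2))) ≤ δ * (e * r) := by
    calc δ * r * (δ * (e * r ^ 2) * (δ * (e * r ^ 2))) ≤ δ * r * (1 * 1) :=
          mul_le_mul_of_nonneg_left (mul_le_mul dm dm m0 zero_le_one) (mul_nonneg h0 r0.le)
      _ ≤ δ := by nlinarith
      _ ≤ _ := de
  have q4 : δ * (δ * (e * r ^ 2)) ≤ δ * (e * r) := by nlinarith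
  have q5 : δ * (δ * (e * r)) ≤ δ * (e * r) := by nlinarith
  have q6 : δ * r * (δ * e) ≤ δ * (e * r) := by
    calc δ * r * (δ * e) = δ * (δ * (e * r)) := by ring
      _ ≤ _ := q5
  have q7 : δ * r * (δ * (e * r ^ 2)) ≤ δ * (e * r) := by
    calc δ * r * (δ * (e * r ^ 2)) ≤ δ * r * 1 :=
          mul_le_mul_of_nonneg_left dm (mul_nonneg h0 r0.le)
      _ ≤ δ := by nlinarith
      _ ≤ _ := de
  linarith

end

end Vale.Agent.P088.R2.H961.F
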