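import Vale.Agent.P088.R2.H961.F.Fr1b
import Vale.Agent.P088.R2.H856.B.Wgt
import Vale.Agent.P088.R2.H856.O.KtI
import Vale.Agent.P088.R2.H516.O.Spec

/-!
# P088, zone B1: row FR1 for the model and for slots

`T : Dat` the model, `σ`, `τ` flat slots, `a_i = ½ ∑ M_ji (σ.e_j - τ.e_j)`,
`b_i = ∑ M_ji (σ.e_j + τ.e_j)`, `σ.s = M S₁ Mᵀ`, `τ.s = M S₂ Mᵀ`.
-/

open Finset

noncomputable section

namespace Vale.Agent.P088.R2.H961.F

open Vale.Agent.P088.R2.H464.EP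
open Vale.Agent.P088.R2.H516.B (So Ro mu)
open Vale.Agent.P088.R2.H856.B (vv)
open Vale.Agent.P088.R2.H961.B.T (Ak)

variable {ι E : Type} [Fintype ι] [DecidableEq ι] [NormedAddCommGroup E] [NormedSpace ℝ E]

/-! ## The model -/

section model

variable (T : Dat ι E)

theorem Ak_dd (k : ι ⊕ ι) : Ak (vv T) T.w k = dd T.w (vv T k) := rfl

/-- `Σ |A_k A_l f| + √(e μ) Σ |A_k f| + e |f|`. -/
def P1 (f : TE E) (z : E) : ℝ :=
  (∑ k, ∑ l, |(Ak (vv T) T.w k (Ak (vv T) T.w l f)).fn z|) +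
    Real.sqrt ((T.e : E → ℝ) z * (mu T : E → ℝ) z) * (∑ k, |(Ak (vv T) T.w k f).fn z|) +
    (T.e : E → ℝ) z * |f.fn z|

/-- `Σ |D_i K_j f| + √(μ/e) Σ (|D_i D_j f| + |K_i K_j f|) + √(e μ) Σ |K_j f| + μ Σ |D_j f| +
√(e μ) |f|`. -/
def P2 (f : TE E) (z : E) : ℝ :=
  (∑ i, ∑ j, |(T.D i (T.K j f)).fn z|) +
    Real.sqrt ((mu T : E → ℝ) z / (T.e : E → ℝ) z) *
      (∑ i, ∑ j, (|(T.D i (T.D j f)).fn z| + |(T.K i (T.K j f)).fn z|)) +
    Real.sqrt ((T.e : E → ℝ) z * (mu T : E → ℝ) z) * (∑ j, |(T.K j f).fn z|) +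
    (mu T : E → ℝ) z * (∑ j, |(T.D j f).fn z|) +
    Real.sqrt ((T.e : E → ℝ) z * (mu T : E → ℝ) z) * |f.fn z|

variable (f : TE E) (z : E)

theorem eDD_T (i j : ι) : eDD T.w T.a f z i j = (T.D i (T.D j f)).fn z := by
  rw [T.D_eq i, T.D_eq j]; rfl

theorem eDK_T (i j : ι) : eDK T.w T.a T.b f z i j = (T.D i (T.K j f)).fn z := by
  rw [T.D_eq i, T.K_eq j]; rfl

theorem eKK_T (i j : ι) : eKK T.w T.b f z i j = (T.K i (T.K j f)).fn z := by
  rw [T.K_eq i, T.K_eq j]; rfl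

theorem eD_T (j : ι) : eD T.w T.a f z j = (T.D j f).fn z := by rw [T.D_eq j]; rfl

theorem eK_T (j : ι) : eK T.w T.b f z j = (T.K j f).fn z := by rw [T.K_eq j]; rfl

theorem So_T : (So T f).fn z = ∑ i, (eDD T.w T.a f z i i + 1 / 4 * eKK T.w T.b f z i i) := by
  have h1 : (So T f).fn z = ev f z (So T) := rfl
  rw [h1, So, H516.B.K2, Dat.D2, map_add, map_smul, map_sum, map_sum, smul_eq_mul,
    Finset.mul_sum, ← Finset.sum_add_distrib]
  refine Finset.sum_congr rfl fun i _ => ?_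
  rw [eDD_T, eKK_T]; rfl

theorem Ro_T : (Ro T f).fn z = ∑ i, eDK T.w T.a T.b f z i i := by
  have h1 : (Ro T f).fn z = ev f z (Ro T) := rfl
  rw [h1, Ro, map_sum]
  refine Finset.sum_congr rfl fun i _ => ?_
  rw [eDK_T]; rfl

theorem P1_sum : P1 T f z =
    (∑ i, ∑ j, (|eDD T.w T.a f z i j| + |eDK T.w T.a T.b f z i j| + |eDK T.w T.a T.b f z j i| +
      |eKK T.w T.b f z i j|)) +
    Real.sqrt ((T.e : E → ℝ) z * (mu T : E → ℝ) z) *
      (∑ j, (|eD T.w T.a f z j| + |eK T.w T.b f z j|)) + (T.e : E → ℝ) z * |f.fn z| := by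
  have c : ∀ i j, dd T.w (T.b i) (dd T.w (T.a j) f) = dd T.w (T.a j) (dd T.w (T.b i) f) :=
    fun i j => LinearMap.congr_fun (dd_comm T.w (T.b i) (T.a j)) f
  unfold P1
  simp only [Fintype.sum_sum_type, Ak_dd]
  congr 2
  · simp only [← Finset.sum_add_distrib]
    refine Finset.sum_congr rfl fun i _ => Finset.sum_congr rfl fun j _ => ?_
    change |(dd T.w (T.a i) (dd T.w (T.a j) f)).fn z| + |(dd T.w (T.a i) (dd T.w (T.b j) f)).fn z| +
      (|(dd T.w (T.b i) (dd T.w (T.a j) f)).fn z| + |(dd T.w (T.b i) (dd T.w (T.b j) f)).fn z|) = _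
    rw [c i j, ← add_assoc]
    rfl
  · rw [← Finset.sum_add_distrib]
    rfl

end model

/-! ## Roots -/

theorem rt_mul {e m : ℝ} (he : 0 < e) (hm : 0 < m) :
    e * Real.sqrt (m / e) = Real.sqrt (e * m) ∧ e * Real.sqrt (m / e) ^ 2 = m := by
  constructor
  · rw [← Real.sqrt_sq he.le, ← Real.sqrt_mul (sq_nonneg e), Real.sqrt_sq he.le]
    congr 1
    field_simp
  · rw [Real.sq_sqrt (by positivity)]
    field_simp

section main

variable {T : Dat ι E} {W : Sm E} {s d : ι → ι → Sm E} {v₁ v₂ : Sm E} {δ : ℝ} {z : E}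
  (he : 0 < (T.e : E → ℝ) z) (hm : 0 < (mu T : E → ℝ) z)
  (hs : ∀ i j, s i j = s j i) (hd : ∀ i j, d i j = d j i)
  (h : Pb T.a T.b s d (W - T.w) v₁ v₂ δ ((T.e : E → ℝ) z)
    (Real.sqrt ((mu T : E → ℝ) z / (T.e : E → ℝ) z)) z) (f : TE E)
include he hm hs hd h

/-- **FR1S** for the model. -/
theorem fr1S_T : |(St W T.a T.b s d v₁ v₂ f).fn z - (So T f).fn z| ≤
    11 * ((Fintype.card ι : ℝ) + 1) ^ 2 * δ * P1 T f z := by
  have h1 := fr1S (f := f) hs hd h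
  rw [← So_T] at h1
  refine h1.trans (mul_le_mul_of_nonneg_left ?_ (mul_nonneg (by positivity) h.δ0))
  have r1 := h.r1
  rw [(rt_mul he hm).1, P1_sum]
  refine add_le_add (add_le_add (Finset.sum_le_sum fun i _ => Finset.sum_le_sum fun j _ => ?_)
    le_rfl) le_rfl
  have h2 : Real.sqrt ((mu T : E → ℝ) z / (T.e : E → ℝ) z) * |eDK T.w T.a T.b f z i j| ≤
      |eDK T.w T.a T.b f z i j| := mul_le_of_le_one_left (abs_nonneg _) r1
  linarith [abs_nonneg (eDK T.w T.a T.b f z j i)]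

/-- **FR1R** for the model. -/
theorem fr1R_T : |(Rt W T.a T.b s d v₁ v₂ f).fn z - (Ro T f).fn z| ≤
    11 * ((Fintype.card ι : ℝ) + 1) ^ 2 * δ * P2 T f z := by
  have h1 := fr1R (f := f) hs hd h
  rw [← Ro_T] at h1
  refine h1.trans (le_of_eq ?_)
  rw [(rt_mul he hm).1, (rt_mul he hm).2]
  congr 1
  have e1 : ∀ (r : ℝ) (A B : ι → ι → ℝ), ∑ i, ∑ j, (A i j + r * B i j) =
      (∑ i, ∑ j, A i j) + r * ∑ i, ∑ j, B i j := fun r A B => by
    simp only [Finset.sum_add_distrib, Finset.mul_sum]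
  rw [e1]
  unfold P2
  simp only [eDD_T, eDK_T, eKK_T, eD_T, eK_T]
  ring

end main

end Vale.Agent.P088.R2.H961.F
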