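import Vale.Agent.P088.R2.H961.F.Fr1c

/-!
# P088, zone B1: the operators of two flat slots in an adapted frame

`a_i = ½ ∑ M_ji (σ.e_j - τ.e_j)`, `b_i = ∑ M_ji (σ.e_j + τ.e_j)`, `σ.s = M S₁ Mᵀ`, `τ.s = M S₂ Mᵀ`.
-/

open Finset

noncomputable section

namespace Vale.Agent.P088.R2.H961.F

open Vale.Agent.P088.R2.H464.EP
open Vale.Agent.P088.R2.H961.GW (Sl)
open Vale.Agent.P088.R2.H516.B (So Ro mu)
open Vale.Agent.P088.R2.H516.O (Sp Rp)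
open Vale.Agent.P088.R2.H960.W (YY)
open Vale.Agent.P088.R2.H856.B (vv)
open Vale.Agent.P088.R2.H856.O (Flt)
open Vale.Agent.P088.R2.H961.B.T (Ak)

variable {ι E : Type} [Fintype ι] [DecidableEq ι] [NormedAddCommGroup E] [NormedSpace ℝ E]

/-! ## Linearity in the direction -/

/-- `dd W` as a linear map of the direction. -/
def ddL (W : Sm E) : E →ₗ[ℝ] Op E where
  toFun := dd W
  map_add' := dd_add W
  map_smul' := dd_smul W

omit [DecidableEq ι] in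
theorem dd_sum (W : Sm E) (c : ι → ℝ) (e : ι → E) :
    dd W (∑ j, c j • e j) = ∑ j, c j • dd W (e j) := by
  have := map_sum (ddL W) (fun j => c j • e j) Finset.univ
  simp only [map_smul] at this
  exact this

omit [Fintype ι] [DecidableEq ι] in
theorem fn_sum {κ : Type*} (S : Finset κ) (g : κ → TE E) (z : E) :
    (∑ i ∈ S, g i).fn z = ∑ i ∈ S, (g i).fn z := by
  have : (∑ i ∈ S, g i).fn = ∑ i ∈ S, (g i).fn := map_sum TE.fnHom g S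
  rw [this, Finset.sum_apply]

/-! ## Change of the frame -/

/-- `M S Mᵀ`. -/
def mS (M : ι → ι → ℝ) (S : ι → ι → Sm E) (i j : ι) : Sm E := ∑ k, ∑ l, (M i k * M j l) • S k l

omit [DecidableEq ι] in
theorem Pv_fr (W : Sm E) (M : ι → ι → ℝ) (S : ι → ι → Sm E) (v : Sm E) (e : ι → E) :
    Pv W (fun k => ∑ i, M i k • e i) S v = Pv W e (mS M S) v := by
  unfold Pv mS
  congr 1
  simp only [dd_sum, map_sum, map_smul, Finset.sum_mul, Finset.mul_sum, smul_mul_assoc,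
    mul_smul_comm, Finset.smul_sum, smul_smul]
  calc ∑ k, ∑ l, ∑ x, ∑ i, (M x l * M i k) • (dd W (e i) * ml (S k l) * dd W (e x))
      = ∑ k, ∑ l, ∑ i, ∑ x, (M i k * M x l) • (dd W (e i) * ml (S k l) * dd W (e x)) := by
        refine Finset.sum_congr rfl fun k _ => Finset.sum_congr rfl fun l _ => ?_
        rw [Finset.sum_comm]
        exact Finset.sum_congr rfl fun i _ => Finset.sum_congr rfl fun x _ => by rw [mul_comm]
    _ = ∑ k, ∑ i, ∑ l, ∑ x, (M i k * M x l) • (dd W (e i) * ml (S k l) * dd W (e x)) :=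
        Finset.sum_congr rfl fun k _ => Finset.sum_comm
    _ = ∑ i, ∑ k, ∑ l, ∑ x, (M i k * M x l) • (dd W (e i) * ml (S k l) * dd W (e x)) :=
        Finset.sum_comm
    _ = ∑ i, ∑ k, ∑ x, ∑ l, (M i k * M x l) • (dd W (e i) * ml (S k l) * dd W (e x)) :=
        Finset.sum_congr rfl fun i _ => Finset.sum_congr rfl fun k _ => Finset.sum_comm
    _ = ∑ i, ∑ x, ∑ k, ∑ l, (M i k * M x l) • (dd W (e i) * ml (S k l) * dd W (e x)) :=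
        Finset.sum_congr rfl fun i _ => Finset.sum_comm

/-! ## The operator of a slot -/

section slot

variable {σ : Sl E ι} {U : Set E} {θ : E → ℝ} {W v : Sm E} {z : E}

omit [Fintype ι] [DecidableEq ι] in
theorem YY_dd (h : Flt σ) (W : Sm E) (f : TE E) (j : ι) (z : E) :
    YY σ (W : E → ℝ) f.fn j z = (dd W (σ.e j) f).fn z := by
  unfold YY
  rw [h.D, h.D]
  change fderiv ℝ f.fn z (σ.e j) + f.fn z * fderiv ℝ (W : E → ℝ) z (σ.e j) =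
    fderiv ℝ f.fn z (σ.e j) + fderiv ℝ (W : E → ℝ) z (σ.e j) * f.fn z
  ring

omit [DecidableEq ι] in
theorem P_slot (h : Flt σ) (ok : σ.Ok U θ) {s : ι → ι → Sm E}
    (hs : ∀ i j, σ.s i j = (s i j : E → ℝ)) (hz : z ∈ U) (f : TE E) :
    σ.P (v : E → ℝ) (W : E → ℝ) f.fn z = (Pv W σ.e s v f).fn z := by
  have hG : ∀ i, (∑ j, ml (s i j) (dd W (σ.e j) f)).fn =
      H856.O.AA σ.s σ.e (W : E → ℝ) f.fn i := fun i => by
    funext w
    rw [fn_sum, H856.O.AA]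
    refine Finset.sum_congr rfl fun j _ => ?_
    rw [hs i j]
    rfl
  have e : Pv W σ.e s v f = ∑ i, dd W (σ.e i) (∑ j, ml (s i j) (dd W (σ.e j) f)) + ml v f := by
    unfold Pv
    rw [LinearMap.add_apply, LinearMap.sum_apply]
    congr 1
    refine Finset.sum_congr rfl fun i _ => ?_
    rw [LinearMap.sum_apply, map_sum]
    rfl
  rw [H856.O.P_pp h ok (scd W).contDiffOn f.cd.contDiffOn hz, e, H856.O.pp, TE.add_fn, fn_sum]
  congr 1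
  refine Finset.sum_congr rfl fun i _ => ?_
  change H856.O.xx (W : E → ℝ) (σ.e i) (H856.O.AA σ.s σ.e (W : E → ℝ) f.fn i) z =
    fderiv ℝ (∑ j, ml (s i j) (dd W (σ.e j) f)).fn z (σ.e i) +
      fderiv ℝ (W : E → ℝ) z (σ.e i) * (∑ j, ml (s i j) (dd W (σ.e j) f)).fn z
  rw [hG i]
  rfl

omit [DecidableEq ι] in
/-- The operator of a slot in a frame. -/
theorem P_fr (h : Flt σ) (ok : σ.Ok U θ) {M : ι → ι → ℝ} {S : ι → ι → Sm E}
    (hs : ∀ i j, σ.s i j = (mS M S i j : E → ℝ)) {X : ι → E}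
    (hX : ∀ k, X k = ∑ i, M i k • σ.e i) (hz : z ∈ U) (f : TE E) :
    σ.P (v : E → ℝ) (W : E → ℝ) f.fn z = (Pv W X S v f).fn z := by
  have : X = fun k => ∑ i, M i k • σ.e i := funext hX
  rw [this, Pv_fr, P_slot h ok hs hz]

end slot

/-! ## Two slots -/

/-- The adapted frame. -/
structure Ad (σ τ : Sl E ι) (M : ι → ι → ℝ) (a b : ι → E) : Prop where
  ha : ∀ i, a i = (1 / 2 : ℝ) • ∑ j, M j i • (σ.e j - τ.e j)
  hb : ∀ i, b i = ∑ j, M j i • (σ.e j + τ.e j)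

/-- Half sum minus identity. -/
def hS (S₁ S₂ : ι → ι → Sm E) (i j : ι) : Sm E := (1 / 2 : ℝ) • (S₁ i j + S₂ i j) - id1 i j

/-- Half difference. -/
def hD (S₁ S₂ : ι → ι → Sm E) (i j : ι) : Sm E := (1 / 2 : ℝ) • (S₁ i j - S₂ i j)

omit [Fintype ι] in
theorem sX_h (S₁ S₂ : ι → ι → Sm E) : sX (hS S₁ S₂) (hD S₁ S₂) = S₁ := by
  funext i j
  unfold sX hS hD
  have : (1 / 2 : ℝ) • (S₁ i j + S₂ i j) + (1 / 2 : ℝ) • (S₁ i j - S₂ i j) = S₁ i j := by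
    rw [← smul_add, add_add_sub_cancel, ← two_smul ℝ (S₁ i j), smul_smul]; norm_num
  calc _ = (1 / 2 : ℝ) • (S₁ i j + S₂ i j) + (1 / 2 : ℝ) • (S₁ i j - S₂ i j) := by abel
    _ = _ := this

omit [Fintype ι] in
theorem sY_h (S₁ S₂ : ι → ι → Sm E) : sY (hS S₁ S₂) (hD S₁ S₂) = S₂ := by
  funext i j
  unfold sY hS hD
  have : (1 / 2 : ℝ) • (S₁ i j + S₂ i j) - (1 / 2 : ℝ) • (S₁ i j - S₂ i j) = S₂ i j := by
    rw [← smul_sub, add_sub_sub_cancel, ← two_smul ℝ (S₂ i j), smul_smul]; norm_num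
  calc _ = (1 / 2 : ℝ) • (S₁ i j + S₂ i j) - (1 / 2 : ℝ) • (S₁ i j - S₂ i j) := by abel
    _ = _ := this

omit [Fintype ι] in
theorem hS_symm {S₁ S₂ : ι → ι → Sm E} (h₁ : ∀ i j, S₁ i j = S₁ j i) (h₂ : ∀ i j, S₂ i j = S₂ j i)
    (i j : ι) : hS S₁ S₂ i j = hS S₁ S₂ j i := by
  unfold hS id1
  rw [h₁ i j, h₂ i j]
  simp only [eq_comm]

omit [Fintype ι] [DecidableEq ι] in
theorem hD_symm {S₁ S₂ : ι → ι → Sm E} (h₁ : ∀ i j, S₁ i j = S₁ j i) (h₂ : ∀ i j, S₂ i j = S₂ j i)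
    (i j : ι) : hD S₁ S₂ i j = hD S₁ S₂ j i := by
  unfold hD
  rw [h₁ i j, h₂ i j]

section two

variable {σ τ : Sl E ι} {M : ι → ι → ℝ} {a b : ι → E} {U : Set E} {θ : E → ℝ} {z : E}

omit [DecidableEq ι] in
theorem Ad.X (h : Ad σ τ M a b) (k : ι) : Xv a b k = ∑ i, M i k • σ.e i := by
  rw [Xv, h.ha, h.hb, ← smul_add, ← Finset.sum_add_distrib, Finset.smul_sum]
  refine Finset.sum_congr rfl fun i _ => ?_
  rw [← smul_add, sub_add_add_cancel, ← two_smul ℝ (σ.e i), smul_comm (M i k), smul_smul]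
  norm_num

omit [DecidableEq ι] in
theorem Ad.Y (h : Ad σ τ M a b) (k : ι) : Yv a b k = ∑ i, M i k • τ.e i := by
  rw [Yv, h.ha, h.hb, ← smul_neg, ← smul_add, ← Finset.sum_neg_distrib, ← Finset.sum_add_distrib,
    Finset.smul_sum]
  refine Finset.sum_congr rfl fun i _ => ?_
  have e : τ.e i - σ.e i + (σ.e i + τ.e i) = (2 : ℝ) • τ.e i := by rw [two_smul]; abel
  rw [← smul_neg, ← smul_add, neg_sub, e, smul_comm (M i k), smul_smul]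
  norm_num

variable {W W₀ v₁ v₂ : Sm E} {S₁ S₂ : ι → ι → Sm E}

/-- `Sp` of the slots is `St`. -/
theorem Sp_St (h : Flt σ) (h' : Flt τ) (ok : σ.Ok U θ) (ot : τ.Ok U θ) (ad : Ad σ τ M a b)
    (hs : ∀ i j, σ.s i j = (mS M S₁ i j : E → ℝ)) (ht : ∀ i j, τ.s i j = (mS M S₂ i j : E → ℝ))
    (hz : z ∈ U) (f : TE E) : Sp σ τ (v₁ : E → ℝ) (v₂ : E → ℝ) (W : E → ℝ) f.fn z =
      (St W a b (hS S₁ S₂) (hD S₁ S₂) v₁ v₂ f).fn z := by
  rw [Sp, P_fr h ok hs ad.X hz f, P_fr h' ot ht ad.Y hz f]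
  change _ = 1 / 2 * ((PX W a b (hS S₁ S₂) (hD S₁ S₂) v₁ f).fn z +
    (PY W a b (hS S₁ S₂) (hD S₁ S₂) v₂ f).fn z)
  rw [PX, PY, sX_h, sY_h]
  ring

/-- `Rp` of the slots is `Rt`. -/
theorem Rp_Rt (h : Flt σ) (h' : Flt τ) (ok : σ.Ok U θ) (ot : τ.Ok U θ) (ad : Ad σ τ M a b)
    (hs : ∀ i j, σ.s i j = (mS M S₁ i j : E → ℝ)) (ht : ∀ i j, τ.s i j = (mS M S₂ i j : E → ℝ))
    (hz : z ∈ U) (f : TE E) : Rp σ τ (v₁ : E → ℝ) (v₂ : E → ℝ) (W : E → ℝ) f.fn z =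
      (Rt W a b (hS S₁ S₂) (hD S₁ S₂) v₁ v₂ f).fn z := by
  rw [Rp, P_fr h ok hs ad.X hz f, P_fr h' ot ht ad.Y hz f]
  change _ = 1 / 2 * ((PX W a b (hS S₁ S₂) (hD S₁ S₂) v₁ f).fn z -
    (PY W a b (hS S₁ S₂) (hD S₁ S₂) v₂ f).fn z)
  rw [PX, PY, sX_h, sY_h]
  ring

omit [DecidableEq ι] in
theorem dd_a (ad : Ad σ τ M a b) (h : Flt σ) (h' : Flt τ) (i : ι) (f : TE E) :
    (dd W₀ (a i) f).fn z = 1 / 2 * ∑ j, M j i * (YY σ (W : E → ℝ) f.fn j z -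
      YY τ (W : E → ℝ) f.fn j z) + (ds (a i) (W₀ - W) : E → ℝ) z * f.fn z := by
  rw [dd_split W₀ W (a i)]
  change (dd W (a i) f).fn z + (ds (a i) (W₀ - W) : E → ℝ) z * f.fn z = _
  congr 1
  rw [ad.ha i, dd_smul, dd_sum]
  change 1 / 2 * ((∑ j, M j i • dd W (σ.e j - τ.e j)) f).fn z = _
  rw [LinearMap.sum_apply, fn_sum]
  congr 1
  refine Finset.sum_congr rfl fun j _ => ?_
  change M j i * (dd W (σ.e j - τ.e j) f).fn z = _
  have e : dd W (σ.e j - τ.e j) = dd W (σ.e j) - dd W (τ.e j) := map_sub (ddL W) _ _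
  rw [e, YY_dd h, YY_dd h']
  rfl

omit [DecidableEq ι] in
theorem dd_b (ad : Ad σ τ M a b) (h : Flt σ) (h' : Flt τ) (i : ι) (f : TE E) :
    (dd W₀ (b i) f).fn z = ∑ j, M j i * (YY σ (W : E → ℝ) f.fn j z +
      YY τ (W : E → ℝ) f.fn j z) + (ds (b i) (W₀ - W) : E → ℝ) z * f.fn z := by
  rw [dd_split W₀ W (b i)]
  change (dd W (b i) f).fn z + (ds (b i) (W₀ - W) : E → ℝ) z * f.fn z = _
  congr 1
  rw [ad.hb i, dd_sum, LinearMap.sum_apply, fn_sum]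
  refine Finset.sum_congr rfl fun j _ => ?_
  change M j i * (dd W (σ.e j + τ.e j) f).fn z = _
  rw [dd_add, YY_dd h, YY_dd h']
  rfl

end two

/-! ## The model and the slots -/

section fin

variable {σ τ : Sl E ι} {M : ι → ι → ℝ} {T : Dat ι E} {U : Set E} {θ : E → ℝ} {z : E}
  {W v₁ v₂ : Sm E} {S₁ S₂ : ι → ι → Sm E} {δ : ℝ}

/-- `D_i f = ½ ∑ M_ji (Y¹_j f - Y²_j f) + λ_i f`, `λ_i = a_i (W₀ - W)`. -/
theorem D_sl (ad : Ad σ τ M T.a T.b) (h : Flt σ) (h' : Flt τ) (i : ι) (f : TE E) :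
    (T.D i f).fn z = 1 / 2 * ∑ j, M j i * (YY σ (W : E → ℝ) f.fn j z -
      YY τ (W : E → ℝ) f.fn j z) + (ds (T.a i) (T.w - W) : E → ℝ) z * f.fn z := by
  rw [T.D_eq i]; exact dd_a (W₀ := T.w) ad h h' i f

/-- `K_i f = ∑ M_ji (Y¹_j f + Y²_j f) + κ_i f`, `κ_i = b_i (W₀ - W)`. -/
theorem K_sl (ad : Ad σ τ M T.a T.b) (h : Flt σ) (h' : Flt τ) (i : ι) (f : TE E) :
    (T.K i f).fn z = ∑ j, M j i * (YY σ (W : E → ℝ) f.fn j z +
      YY τ (W : E → ℝ) f.fn j z) + (ds (T.b i) (T.w - W) : E → ℝ) z * f.fn z := by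
  rw [T.K_eq i]; exact dd_b (W₀ := T.w) ad h h' i f

variable (h : Flt σ) (h' : Flt τ) (ok : σ.Ok U θ) (ot : τ.Ok U θ) (ad : Ad σ τ M T.a T.b)
  (hs : ∀ i j, σ.s i j = (mS M S₁ i j : E → ℝ)) (ht : ∀ i j, τ.s i j = (mS M S₂ i j : E → ℝ))
  (y₁ : ∀ i j, S₁ i j = S₁ j i) (y₂ : ∀ i j, S₂ i j = S₂ j i)
  (he : 0 < (T.e : E → ℝ) z) (hm : 0 < (mu T : E → ℝ) z)
  (pb : Pb T.a T.b (hS S₁ S₂) (hD S₁ S₂) (W - T.w) v₁ v₂ δ ((T.e : E → ℝ) z)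
    (Real.sqrt ((mu T : E → ℝ) z / (T.e : E → ℝ) z)) z) (hz : z ∈ U) (f : TE E)
include h h' ok ot ad hs ht y₁ y₂ he hm pb hz

/-- **FR1S** for the slots. -/
theorem fr1S_sl : |Sp σ τ (v₁ : E → ℝ) (v₂ : E → ℝ) (W : E → ℝ) f.fn z - (So T f).fn z| ≤
    11 * ((Fintype.card ι : ℝ) + 1) ^ 2 * δ * P1 T f z := by
  rw [Sp_St h h' ok ot ad hs ht hz f]
  exact fr1S_T he hm (hS_symm y₁ y₂) (hD_symm y₁ y₂) pb f

/-- **FR1R** for the slots. -/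
theorem fr1R_sl : |Rp σ τ (v₁ : E → ℝ) (v₂ : E → ℝ) (W : E → ℝ) f.fn z - (Ro T f).fn z| ≤
    11 * ((Fintype.card ι : ℝ) + 1) ^ 2 * δ * P2 T f z := by
  rw [Rp_Rt h h' ok ot ad hs ht hz f]
  exact fr1R_T he hm (hS_symm y₁ y₂) (hD_symm y₁ y₂) pb f

end fin

end Vale.Agent.P088.R2.H961.F
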