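import Vale.Agent.P088.R2.H961.F.Fr1d
import Vale.Agent.P088.R2.H961.S.Fram
import Vale.Agent.P088.R2.H961.W.Inst
import Mathlib.LinearAlgebra.Matrix.NonsingularInverse

/-!
# P088, zone B1: the frame of an invertible matrix on pairs of points

`a_i = (M_i / 2, -M_i / 2)`, `b_i = (M_i, M_i)`, `M_i` the `i`-th column of `M`, `q = N (x - y)`,
`N M = 1`.
-/

open Finset
open scoped ContDiff

noncomputable section

namespace Vale.Agent.P088.R2.H961.F

open Vale.Agent.P088.LR Vale.Agent.P088.HY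
open Vale.Agent.P088.R2.H464.EP (Sm TE Dat)
open Vale.Agent.P088.R2.H961.GW (slx sly Sl)
open Vale.Agent.P088.R2.H961.S (Fram mid)
open Vale.Agent.P088.R2.H856.O (Flt)

variable {n : ℕ}

theorem flt_x (s : MF n) : Flt (slx (fun _ => (1 : ℝ)) s) where
  r _ := rfl
  k i z := by
    change -((n : ℝ) - 1) * pd i (fun _ => (1 : ℝ)) z.1 = 0
    simp [pd]

theorem flt_y (s : MF n) : Flt (sly (fun _ => (1 : ℝ)) s) where
  r _ := rfl
  k i z := by
    change -((n : ℝ) - 1) * pd i (fun _ => (1 : ℝ)) z.2 = 0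
    simp [pd]

/-- The frame of the matrix `M` with inverse `N`. -/
def frM (M N : Matrix (Fin n) (Fin n) ℝ) (h : N * M = 1) : Fram (Fin n) (mid (Fin n)) where
  a i := ((1 / 2 : ℝ) • M.col i, -((1 / 2 : ℝ) • M.col i))
  b i := (M.col i, M.col i)
  q i := ∑ k, N i k • ((ContinuousLinearMap.proj k).comp (ContinuousLinearMap.fst ℝ (V n) (V n)) -
        (ContinuousLinearMap.proj k).comp (ContinuousLinearMap.snd ℝ (V n) (V n)))
  aq i j := by
    have h1 : ∀ k, N j k * ((1 / 2 : ℝ) * M k i - -((1 / 2 : ℝ) * M k i)) = N j k * M k i :=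
      fun k => by ring
    have h2 : (N * M) j i = if i = j then 1 else 0 := by
      rw [h, Matrix.one_apply]; simp only [eq_comm]
    rw [Matrix.mul_apply] at h2
    rw [_root_.sum_apply, ← h2]
    exact Finset.sum_congr rfl fun k _ => h1 k
  bq i j := by
    rw [_root_.sum_apply]
    refine Finset.sum_eq_zero fun k _ => ?_
    change N j k * (M k i - M k i) = 0
    ring
  ap i := by
    rw [S.mid_apply]; simp
  inj z h1 h2 := by
    rw [S.mid_apply] at h1
    have h3 : z.1 + z.2 = 0 := by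
      have : (1 / 2 : ℝ) ≠ 0 := by norm_num
      exact (smul_eq_zero.1 h1).resolve_left this
    have h4 : Matrix.mulVec N (z.1 - z.2) = 0 := by
      funext i
      have := h2 i
      rw [_root_.sum_apply] at this
      exact this
    have h5 : z.1 - z.2 = 0 := by
      have h6 : M * N = 1 := _root_.mul_eq_one_comm.1 h
      have h7 := congrArg (Matrix.mulVec M) h4
      rw [Matrix.mulVec_mulVec, h6, Matrix.one_mulVec, Matrix.mulVec_zero] at h7
      exact h7
    have e0 : z.1 = z.2 := sub_eq_zero.1 h5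
    have e1 : z.2 = 0 := by
      rw [e0, ← two_smul ℝ z.2] at h3
      exact (smul_eq_zero.1 h3).resolve_left (by norm_num)
    exact Prod.ext (e0.trans e1) e1

theorem col_sum (M : Matrix (Fin n) (Fin n) ℝ) (i : Fin n) :
    ∑ j, M j i • (Pi.single j 1 : V n) = M.col i := by
  funext k
  rw [Finset.sum_apply, Finset.sum_eq_single k]
  · simp [Matrix.col]
  · intro j _ hj
    simp [Ne.symm hj]
  · intro hk; exact absurd (Finset.mem_univ k) hk

/-- The frame is adapted. -/
theorem ad_frM (M N : Matrix (Fin n) (Fin n) ℝ) (h : N * M = 1) (s₁ s₂ : MF n) :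
    Ad (slx (fun _ => (1 : ℝ)) s₁) (sly (fun _ => (1 : ℝ)) s₂) M (frM M N h).a (frM M N h).b where
  ha i := by
    have e : ∀ j, M j i • ((slx (fun _ => (1 : ℝ)) s₁).e j - (sly (fun _ => (1 : ℝ)) s₂).e j) =
        (M j i • (Pi.single j 1 : V n), -(M j i • (Pi.single j 1 : V n))) := fun j => by
      change M j i • (((Pi.single j 1 : V n), (0 : V n)) - ((0 : V n), (Pi.single j 1 : V n))) = _
      refine Prod.ext ?_ ?_
      · change M j i • ((Pi.single j 1 : V n) - 0) = _
        rw [sub_zero]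
      · change M j i • ((0 : V n) - (Pi.single j 1 : V n)) = _
        rw [zero_sub, smul_neg]
    simp only [e]
    refine Prod.ext ?_ ?_
    · rw [Prod.smul_fst, Prod.fst_sum, col_sum]; rfl
    · rw [Prod.smul_snd, Prod.snd_sum, Finset.sum_neg_distrib, col_sum, smul_neg]; rfl
  hb i := by
    have e : ∀ j, M j i • ((slx (fun _ => (1 : ℝ)) s₁).e j + (sly (fun _ => (1 : ℝ)) s₂).e j) =
        (M j i • (Pi.single j 1 : V n), M j i • (Pi.single j 1 : V n)) := fun j => by
      change M j i • (((Pi.single j 1 : V n), (0 : V n)) + ((0 : V n), (Pi.single j 1 : V n))) = _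
      refine Prod.ext ?_ ?_
      · change M j i • ((Pi.single j 1 : V n) + 0) = _
        rw [add_zero]
      · change M j i • ((0 : V n) + (Pi.single j 1 : V n)) = _
        rw [zero_add]
    simp only [e]
    refine Prod.ext ?_ ?_
    · rw [Prod.fst_sum, col_sum]; rfl
    · rw [Prod.snd_sum, col_sum]; rfl

/-! ## The tensors in the frame -/

/-- `N s(x) Nᵀ` as a function of the pair. -/
def cX (N : Matrix (Fin n) (Fin n) ℝ) {s : MF n} (hs : ∀ i j, ContDiff ℝ ∞ fun x => s x i j)
    (k l : Fin n) : Sm (VV n) :=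
  ⟨fun z => ∑ i, ∑ j, N k i * N l j * s z.1 i j, ContDiff.sum fun i _ => ContDiff.sum fun j _ =>
    contDiff_const.mul ((hs i j).comp contDiff_fst)⟩

/-- `N s(y) Nᵀ` as a function of the pair. -/
def cY (N : Matrix (Fin n) (Fin n) ℝ) {s : MF n} (hs : ∀ i j, ContDiff ℝ ∞ fun x => s x i j)
    (k l : Fin n) : Sm (VV n) :=
  ⟨fun z => ∑ i, ∑ j, N k i * N l j * s z.2 i j, ContDiff.sum fun i _ => ContDiff.sum fun j _ =>
    contDiff_const.mul ((hs i j).comp contDiff_snd)⟩

theorem mNm (M N : Matrix (Fin n) (Fin n) ℝ) (h : N * M = 1) (s : Matrix (Fin n) (Fin n) ℝ)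
    (i j : Fin n) :
    ∑ k, ∑ l, M i k * M j l * (∑ p, ∑ q, N k p * N l q * s p q) = s i j := by
  have h6 : M * N = 1 := _root_.mul_eq_one_comm.1 h
  have e1 : ∀ k l, ∑ p, ∑ q, N k p * N l q * s p q = (N * s * N.transpose) k l := fun k l => by
    rw [Matrix.mul_apply]
    simp only [Matrix.mul_apply, Finset.sum_mul, Matrix.transpose_apply]
    rw [Finset.sum_comm]
    exact Finset.sum_congr rfl fun p _ => Finset.sum_congr rfl fun q _ => by ring
  have e2 : ∀ A : Matrix (Fin n) (Fin n) ℝ, ∑ k, ∑ l, M i k * M j l * A k l =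
      (M * A * M.transpose) i j := fun A => by
    rw [Matrix.mul_apply]
    simp only [Matrix.mul_apply, Finset.sum_mul, Matrix.transpose_apply]
    rw [Finset.sum_comm]
    exact Finset.sum_congr rfl fun p _ => Finset.sum_congr rfl fun q _ => by ring
  simp only [e1]
  rw [e2]
  have e3 : M * (N * s * N.transpose) * M.transpose = s := by
    calc M * (N * s * N.transpose) * M.transpose
        = (M * N) * s * (M * N).transpose := by
          rw [Matrix.transpose_mul]; simp only [Matrix.mul_assoc]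
      _ = s := by rw [h6, Matrix.transpose_one, Matrix.one_mul, Matrix.mul_one]
  rw [e3]

theorem sm_sum' {κ : Type*} (S : Finset κ) {E : Type} [NormedAddCommGroup E] [NormedSpace ℝ E]
    (f : κ → Sm E) (z : E) : ((∑ i ∈ S, f i : Sm E) : E → ℝ) z = ∑ i ∈ S, (f i : E → ℝ) z :=
  H856.B.sm_sum S f z

theorem mS_cX (M N : Matrix (Fin n) (Fin n) ℝ) (h : N * M = 1) {s : MF n}
    (hs : ∀ i j, ContDiff ℝ ∞ fun x => s x i j) (i j : Fin n) :
    (slx (fun _ => (1 : ℝ)) s).s i j = (mS M (cX N hs) i j : VV n → ℝ) := by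
  funext z
  unfold mS
  rw [sm_sum']
  simp only [sm_sum']
  exact (mNm M N h (s z.1) i j).symm

theorem mS_cY (M N : Matrix (Fin n) (Fin n) ℝ) (h : N * M = 1) {s : MF n}
    (hs : ∀ i j, ContDiff ℝ ∞ fun x => s x i j) (i j : Fin n) :
    (sly (fun _ => (1 : ℝ)) s).s i j = (mS M (cY N hs) i j : VV n → ℝ) := by
  funext z
  unfold mS
  rw [sm_sum']
  simp only [sm_sum']
  exact (mNm M N h (s z.2) i j).symm

theorem cX_symm (N : Matrix (Fin n) (Fin n) ℝ) {s : MF n}
    (hs : ∀ i j, ContDiff ℝ ∞ fun x => s x i j) (sy : ∀ x i j, s x i j = s x j i)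
    (k l : Fin n) : cX N hs k l = cX N hs l k := by
  ext z
  change ∑ i, ∑ j, N k i * N l j * s z.1 i j = ∑ i, ∑ j, N l i * N k j * s z.1 i j
  rw [Finset.sum_comm]
  exact Finset.sum_congr rfl fun i _ => Finset.sum_congr rfl fun j _ => by rw [sy z.1 j i]; ring

theorem cY_symm (N : Matrix (Fin n) (Fin n) ℝ) {s : MF n}
    (hs : ∀ i j, ContDiff ℝ ∞ fun x => s x i j) (sy : ∀ x i j, s x i j = s x j i)
    (k l : Fin n) : cY N hs k l = cY N hs l k := by
  ext z
  change ∑ i, ∑ j, N k i * N l j * s z.2 i j = ∑ i, ∑ j, N l i * N k j * s z.2 i j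
  rw [Finset.sum_comm]
  exact Finset.sum_congr rfl fun i _ => Finset.sum_congr rfl fun j _ => by rw [sy z.2 j i]; ring

end Vale.Agent.P088.R2.H961.F
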